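import Vale.Agent.P181.R2.H539.CountGap
import Vale.Agent.P181.R2.H207.FinalOf

/-! P181, theorem K, row K16: almost all partitions with at most `n + 3` rows, `b ≥ a + K`. -/

set_option autoImplicit false

open scoped TensorProduct

namespace Vale.Agent.P181.KT

open Vale.Agent.P181 Vale.Agent.P181.H280 Vale.Agent.P181.FR

/-- The theorem without a lower bound for `a`. -/
theorem k15_all
    (H : ∀ (n : ℕ) {κ : ℝ}, 0 < κ → ∃ K A : ℕ, ∀ (a b : ℕ) (lam : Fin (n + 3) → ℕ),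
      A ≤ a → a + K ≤ b → ∑ i, lam i = a * b →
      (∀ i : Fin (n + 2), (lam i.succ : ℝ) + κ * (a * b) ≤ lam i.castSucc) →
      κ * (a * b) ≤ lam (Fin.last _) → plethMult a b (n + 3) lam ≤ plethMult b a (n + 3) lam)
    (n : ℕ) {κ : ℝ} (hκ : 0 < κ) : ∃ K : ℕ, ∀ (a b : ℕ) (lam : Fin (n + 3) → ℕ),
      a + K ≤ b → ∑ i, lam i = a * b →
      (∀ i : Fin (n + 2), (lam i.succ : ℝ) + κ * (a * b) ≤ lam i.castSucc) →
      κ * (a * b) ≤ lam (Fin.last _) →
      plethMult a b (n + 3) lam ≤ plethMult b a (n + 3) lam := by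
  obtain ⟨K, A, h⟩ := H n hκ
  refine ⟨K + A ^ 2, fun a b lam hab hsum hgap hlast => ?_⟩
  by_cases hA : A ≤ a
  · exact h a b lam hA (by omega) hsum hgap hlast
  · rw [not_le] at hA
    have h1 : (a - 1) ^ 2 ≤ A ^ 2 := Nat.pow_le_pow_left (by omega) 2
    exact foulkes_quadratic (by omega) lam

/-- **Row K16.** For every `ε > 0` there is `K` such that Foulkes' inequality holds for all but a
proportion `ε` of the partitions of `a b` with at most `n + 3` rows, for all `b ≥ a + K`. -/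
theorem k16_of
    (H : ∀ (n : ℕ) {κ : ℝ}, 0 < κ → ∃ K A : ℕ, ∀ (a b : ℕ) (lam : Fin (n + 3) → ℕ),
      A ≤ a → a + K ≤ b → ∑ i, lam i = a * b →
      (∀ i : Fin (n + 2), (lam i.succ : ℝ) + κ * (a * b) ≤ lam i.castSucc) →
      κ * (a * b) ≤ lam (Fin.last _) → plethMult a b (n + 3) lam ≤ plethMult b a (n + 3) lam)
    (n : ℕ) {ε : ℝ} (hε : 0 < ε) :
    ∃ K : ℕ, ∀ a b : ℕ, 1 ≤ a → a + K ≤ b →
      ({lam ∈ (Parts (n + 3) (a * b) : Set (Fin (n + 3) → Fin (a * b + 1))) |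
        ¬ plethMult a b (n + 3) (fun i => lam i) ≤
          plethMult b a (n + 3) (fun i => lam i)}.ncard : ℝ) ≤
        ε * (Parts (n + 3) (a * b)).card := by
  obtain ⟨K0, h6⟩ := count_gap n
  obtain ⟨θ, hθ⟩ : ∃ θ : ℝ, θ = ε / (2 * (K0 + 1)) := ⟨_, rfl⟩
  have hθ0 : 0 < θ := by rw [hθ]; positivity
  obtain ⟨K, h5⟩ := k15_all H n hθ0
  refine ⟨K + ⌈1 / θ⌉₊, fun a b ha hb => ?_⟩
  obtain ⟨N, hN⟩ : ∃ N : ℕ, N = (Parts (n + 3) (a * b)).card := ⟨_, rfl⟩
  rw [← hN]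
  have ha1 : (1 : ℝ) ≤ a := by exact_mod_cast ha
  have ha0 : (0 : ℝ) < a := by linarith
  have hti : 0 < 1 / θ := by positivity
  have hbθ : 1 / θ ≤ b := by
    have h1 : ⌈1 / θ⌉₊ ≤ b := by omega
    exact (Nat.le_ceil _).trans (by exact_mod_cast h1)
  have hb0 : (0 : ℝ) < b := by linarith
  have hX1 : 1 ≤ θ * (a * b) := by
    rw [div_le_iff₀ hθ0] at hbθ
    nlinarith
  have hX0 : 0 ≤ θ * (a * b) := by linarith
  obtain ⟨G, hG⟩ : ∃ G : ℕ, G = ⌈θ * ((a : ℝ) * b)⌉₊ := ⟨_, rfl⟩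
  have hXG : θ * (a * b) ≤ G := by rw [hG]; exact Nat.le_ceil _
  have hGX : (G : ℝ) ≤ θ * (a * b) + 1 := by rw [hG]; exact (Nat.ceil_lt_add_one hX0).le
  have hG1 : 1 ≤ G := by
    rw [hG]
    exact Nat.one_le_ceil_iff.2 (by linarith)
  have h7' := h6 (a * b) G hG1
  rw [← hN] at h7'
  obtain ⟨F, hF⟩ : ∃ F : Finset (Fin (n + 3) → Fin (a * b + 1)),
      F = (Parts (n + 3) (a * b)).filter (fun lam =>
      (∃ i : Fin (n + 2), (lam i.castSucc : ℕ) < lam i.succ + G) ∨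
        (lam (Fin.last _) : ℕ) < G) := ⟨_, rfl⟩
  rw [← hF] at h7'
  have hsub : {lam ∈ (Parts (n + 3) (a * b) : Set (Fin (n + 3) → Fin (a * b + 1))) |
        ¬ plethMult a b (n + 3) (fun i => lam i) ≤
          plethMult b a (n + 3) (fun i => lam i)} ⊆ (F : Set (Fin (n + 3) → Fin (a * b + 1))) := by
    rintro lam ⟨hlam, hbad⟩
    rw [hF, Finset.coe_filter]
    refine ⟨hlam, ?_⟩
    by_contra hcon
    rw [not_or, not_exists] at hcon
    obtain ⟨hgap, hlast⟩ := hcon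
    have hgapR : ∀ i : Fin (n + 2), ((lam i.succ : ℕ) : ℝ) + G ≤ ((lam i.castSucc : ℕ) : ℝ) :=
      fun i => by exact_mod_cast not_lt.1 (hgap i)
    have hmem : lam ∈ Parts (n + 3) (a * b) := hlam
    unfold Parts at hmem
    rw [Finset.mem_filter] at hmem
    refine hbad (h5 a b (fun i => (lam i : ℕ)) (by omega) hmem.2.2 ?_ ?_)
    · intro i
      have h0 := hgapR i
      linarith
    · have : (G : ℝ) ≤ ((lam (Fin.last _) : ℕ) : ℝ) := by exact_mod_cast not_lt.1 hlast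
      linarith
  have hcard : ({lam ∈ (Parts (n + 3) (a * b) : Set (Fin (n + 3) → Fin (a * b + 1))) |
        ¬ plethMult a b (n + 3) (fun i => lam i) ≤
          plethMult b a (n + 3) (fun i => lam i)}.ncard : ℝ) ≤ F.card := by
    have h1 := Set.ncard_le_ncard hsub (Finset.finite_toSet F)
    rw [Set.ncard_coe_finset] at h1
    exact_mod_cast h1
  refine hcard.trans ?_
  have h7 : (a : ℝ) * b * F.card ≤ K0 * G * N := by exact_mod_cast h7'
  have hab0 : 0 < (a : ℝ) * b := by positivity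
  have hN0 : (0 : ℝ) ≤ N := Nat.cast_nonneg _
  have hK0 : (0 : ℝ) ≤ K0 := Nat.cast_nonneg _
  have hKθ : K0 * (2 * θ) ≤ ε := by
    rw [hθ]
    have e : (K0 : ℝ) * (2 * (ε / (2 * (K0 + 1)))) = ε * (K0 / (K0 + 1)) := by
      field_simp
    rw [e]
    have : (K0 : ℝ) / (K0 + 1) ≤ 1 := by
      rw [div_le_one (by positivity)]
      linarith
    nlinarith
  have h12 : (a : ℝ) * b * F.card ≤ a * b * (ε * N) := by
    calc (a : ℝ) * b * F.card ≤ K0 * G * N := h7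
      _ ≤ K0 * (2 * (θ * (a * b))) * N := by
        refine mul_le_mul_of_nonneg_right ?_ hN0
        exact mul_le_mul_of_nonneg_left (by linarith) hK0
      _ = a * b * (K0 * (2 * θ) * N) := by ring
      _ ≤ a * b * (ε * N) := by
        refine mul_le_mul_of_nonneg_left ?_ hab0.le
        exact mul_le_mul_of_nonneg_right hKθ hN0
  exact le_of_mul_le_mul_left h12 hab0

end Vale.Agent.P181.KT
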