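import Vale.Agent.P181.R2.H182.VDefs
import Mathlib.Algebra.MvPolynomial.Funext

/-! P181, theorem V: row V2 (degrees). -/

set_option autoImplicit false

open scoped TensorProduct

namespace Vale.Agent.P181.VT.V2H

open Vale.Agent.P181 Vale.Agent.P181.H280 Vale.Agent.P181.FR Vale.Agent.P181.VT MvPolynomial

/-- polynomial functions of configurations -/
def PF {B m : ℕ} (G : (Fin B → Fin m → ℂ) → ℂ) : Prop :=
  ∃ P : MvPolynomial (Fin B × Fin m) ℂ, ∀ p, G p = eval (fun x => p x.1 x.2) P

section PFs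

variable {B m : ℕ}

theorem pf_const (c : ℂ) : PF (fun _ : Fin B → Fin m → ℂ => c) :=
  ⟨C c, fun p => (eval_C c).symm⟩

theorem pf_coord (j : Fin B) (i : Fin m) : PF (fun p : Fin B → Fin m → ℂ => p j i) :=
  ⟨X (j, i), fun p => by rw [eval_X]⟩

theorem pf_add {G H : (Fin B → Fin m → ℂ) → ℂ} (hG : PF G) (hH : PF H) :
    PF (fun p => G p + H p) := by
  obtain ⟨P, hP⟩ := hG
  obtain ⟨Q, hQ⟩ := hH
  exact ⟨P + Q, fun p => by rw [map_add, ← hP, ← hQ]⟩

theorem pf_mul {G H : (Fin B → Fin m → ℂ) → ℂ} (hG : PF G) (hH : PF H) :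
    PF (fun p => G p * H p) := by
  obtain ⟨P, hP⟩ := hG
  obtain ⟨Q, hQ⟩ := hH
  exact ⟨P * Q, fun p => by rw [map_mul, ← hP, ← hQ]⟩

theorem pf_sum {ι : Type} (s : Finset ι) (G : ι → (Fin B → Fin m → ℂ) → ℂ)
    (h : ∀ i ∈ s, PF (G i)) : PF (fun p => ∑ i ∈ s, G i p) := by
  classical
  induction s using Finset.induction_on with
  | empty => simpa using pf_const (B := B) (m := m) 0
  | insert a s ha ih =>
    have h1 := pf_add (h a (Finset.mem_insert_self a s))
      (ih (fun i hi => h i (Finset.mem_insert_of_mem hi)))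
    simpa only [Finset.sum_insert ha] using h1

theorem pf_prod {ι : Type} (s : Finset ι) (G : ι → (Fin B → Fin m → ℂ) → ℂ)
    (h : ∀ i ∈ s, PF (G i)) : PF (fun p => ∏ i ∈ s, G i p) := by
  classical
  induction s using Finset.induction_on with
  | empty => simpa using pf_const (B := B) (m := m) 1
  | insert a s ha ih =>
    have h1 := pf_mul (h a (Finset.mem_insert_self a s))
      (ih (fun i hi => h i (Finset.mem_insert_of_mem hi)))
    simpa only [Finset.prod_insert ha] using h1

theorem pf_det {n : ℕ} (M : (Fin B → Fin m → ℂ) → Matrix (Fin n) (Fin n) ℂ)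
    (h : ∀ i j, PF (fun p => M p i j)) : PF (fun p => (M p).det) := by
  simp only [Matrix.det_apply']
  apply pf_sum
  intro σ _
  exact pf_mul (pf_const _) (pf_prod _ _ (fun i _ => h _ _))

theorem pf_eval {n : ℕ} (q : MvPolynomial (Fin n) ℂ) (g : (Fin B → Fin m → ℂ) → Fin n → ℂ)
    (hg : ∀ i, PF (fun p => g p i)) : PF (fun p => eval (g p) q) := by
  induction q using MvPolynomial.induction_on with
  | C a => simpa using pf_const (B := B) (m := m) a
  | add p q hp hq => simpa only [map_add] using pf_add hp hq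
  | mul_X p i hp => simpa only [map_mul, eval_X] using pf_mul hp (hg i)

/-- substitution of polynomial functions in an element of `MP` -/
theorem pf_MP {c : ℕ} {F : (Fin B → Fin m → ℂ) → ℂ} (hF : F ∈ MP B m c)
    (g : (Fin B → Fin m → ℂ) → Fin B → Fin m → ℂ) (hg : ∀ j i, PF (fun p => g p j i)) :
    PF (fun p => F (g p)) := by
  induction hF using Submodule.span_induction with
  | mem F hF =>
    obtain ⟨q, -, rfl⟩ := hF
    exact pf_prod _ _ (fun j _ => pf_eval _ _ (fun i => hg j i))
  | zero => exact pf_const 0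
  | add F G _ _ h1 h2 => exact pf_add h1 h2
  | smul a F _ h1 => exact pf_mul (pf_const a) h1

end PFs

theorem eval_hom {m a : ℕ} {q : MvPolynomial (Fin m) ℂ} (hq : q.IsHomogeneous a) (s : ℂ)
    (v : Fin m → ℂ) : eval (s • v) q = s ^ a * eval v q := by
  rw [eval_eq', eval_eq', Finset.mul_sum]
  refine Finset.sum_congr rfl (fun μ hμ => ?_)
  have h1 : ∑ i, μ i = a := by
    have h2 := hq (mem_support_iff.1 hμ)
    rw [Finsupp.weight_apply, Finsupp.sum_fintype _ _ (fun _ => by simp)] at h2
    simpa using h2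
  have h3 : ∏ i, (s • v) i ^ μ i = s ^ a * ∏ i, v i ^ μ i := by
    rw [← h1, ← Finset.prod_pow_eq_pow_sum, ← Finset.prod_mul_distrib]
    refine Finset.prod_congr rfl (fun i _ => ?_)
    rw [Pi.smul_apply, smul_eq_mul, mul_pow]
  rw [h3]
  ring

/-- elements of `MP` are homogeneous in every point -/
theorem MP_scale {B m c : ℕ} {F : (Fin B → Fin m → ℂ) → ℂ} (hF : F ∈ MP B m c)
    (p : Fin B → Fin m → ℂ) (j : Fin B) (s : ℂ) :
    F (fun l => (if l = j then s else 1) • p l) = s ^ c * F p := by
  classical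
  induction hF using Submodule.span_induction with
  | mem F hF =>
    obtain ⟨q, hq, rfl⟩ := hF
    show ∏ l, eval ((if l = j then s else 1) • p l) (q l) = s ^ c * ∏ l, eval (p l) (q l)
    have h1 : ∀ l, eval ((if l = j then s else 1) • p l) (q l) =
        (if l = j then s ^ c else 1) * eval (p l) (q l) := by
      intro l
      rw [eval_hom (hq l)]
      split_ifs
      · rfl
      · rw [one_pow]
    rw [Finset.prod_congr rfl (fun l _ => h1 l), Finset.prod_mul_distrib,
      Finset.prod_ite_eq' Finset.univ j (fun _ => s ^ c), if_pos (Finset.mem_univ j)]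
  | zero => simp
  | add F G _ _ h1 h2 =>
    show F _ + G _ = s ^ c * (F p + G p)
    rw [h1, h2]; ring
  | smul a F _ h1 =>
    show a * F _ = s ^ c * (a * F p)
    rw [h1]; ring

/-- a polynomial function which is homogeneous of degree `a` in every point lies in `MP` -/
theorem MP_of {B m a : ℕ} {G : (Fin B → Fin m → ℂ) → ℂ} (hG : PF G)
    (hs : ∀ (p : Fin B → Fin m → ℂ) (j : Fin B),
      G (fun l => (if l = j then (2 : ℂ) else 1) • p l) = 2 ^ a * G p) : G ∈ MP B m a := by
  classical
  obtain ⟨P, hP⟩ := hG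
  -- the degrees of the monomials
  have hdeg : ∀ j : Fin B, ∀ μ ∈ P.support, ∑ i, μ (j, i) = a := by
    intro j
    have hD : (∑ μ ∈ P.support, monomial μ (coeff μ P * ((2 : ℂ) ^ (∑ i, μ (j, i)) - 2 ^ a))) =
        (0 : MvPolynomial (Fin B × Fin m) ℂ) := by
      apply MvPolynomial.funext
      intro x
      have h1 := hs (fun l i => x (l, i)) j
      rw [hP, hP, eval_eq', eval_eq', Finset.mul_sum] at h1
      rw [map_zero, map_sum, ← sub_eq_zero.2 h1, ← Finset.sum_sub_distrib]
      refine Finset.sum_congr rfl (fun μ _ => ?_)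
      rw [eval_monomial, Finsupp.prod_fintype _ _ (fun _ => pow_zero _)]
      have h2 : ∏ y : Fin B × Fin m, ((if y.1 = j then (2 : ℂ) else 1) •
          (fun i => x (y.1, i))) y.2 ^ μ y = (2 : ℂ) ^ (∑ i, μ (j, i)) *
            ∏ y : Fin B × Fin m, x y ^ μ y := by
        have h3 : ∀ y : Fin B × Fin m, ((if y.1 = j then (2 : ℂ) else 1) •
            (fun i => x (y.1, i))) y.2 ^ μ y =
              (if y.1 = j then (2 : ℂ) ^ μ y else 1) * x y ^ μ y := by
          intro y
          rw [Pi.smul_apply, smul_eq_mul, mul_pow]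
          split_ifs
          · rfl
          · rw [one_pow]
        rw [Finset.prod_congr rfl (fun y _ => h3 y), Finset.prod_mul_distrib]
        congr 1
        rw [Fintype.prod_prod_type, Finset.prod_eq_single j]
        · simp only [if_true]
          rw [Finset.prod_pow_eq_pow_sum]
        · intro l _ hl
          simp [hl]
        · intro h
          exact absurd (Finset.mem_univ j) h
      show coeff μ P * ((2 : ℂ) ^ (∑ i, μ (j, i)) - 2 ^ a) * ∏ y : Fin B × Fin m, x y ^ μ y = _
      have h4 : ∏ i : Fin B × Fin m, ((fun l => (if l = j then (2 : ℂ) else 1) •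
          fun i => x (l, i)) i.1) i.2 ^ μ i = (2 : ℂ) ^ (∑ i, μ (j, i)) *
            ∏ y : Fin B × Fin m, x y ^ μ y := h2
      rw [h4]
      show _ = coeff μ P * ((2 : ℂ) ^ (∑ i, μ (j, i)) * ∏ y : Fin B × Fin m, x y ^ μ y) -
        2 ^ a * (coeff μ P * ∏ y : Fin B × Fin m, x y ^ μ y)
      ring
    intro μ hμ
    have h1 := congrArg (coeff μ) hD
    rw [coeff_sum, coeff_zero] at h1
    simp only [coeff_monomial] at h1
    rw [Finset.sum_ite_eq' P.support μ, if_pos hμ] at h1
    have h2 : (2 : ℂ) ^ (∑ i, μ (j, i)) = 2 ^ a := by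
      rcases mul_eq_zero.1 h1 with h | h
      · exact absurd h (mem_support_iff.1 hμ)
      · exact sub_eq_zero.1 h
    have h3 : (2 : ℕ) ^ (∑ i, μ (j, i)) = 2 ^ a := by exact_mod_cast h2
    exact Nat.pow_right_injective (le_refl 2) h3
  have hGe : G = ∑ μ ∈ P.support, coeff μ P •
      (fun p : Fin B → Fin m → ℂ => ∏ j, eval (p j) (∏ i, (X i : MvPolynomial (Fin m) ℂ) ^ μ (j, i))) := by
    funext p
    rw [hP, eval_eq', Finset.sum_apply]
    refine Finset.sum_congr rfl (fun μ _ => ?_)
    rw [Pi.smul_apply, smul_eq_mul, Fintype.prod_prod_type]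
    congr 1
    refine Finset.prod_congr rfl (fun j _ => ?_)
    rw [map_prod]
    refine Finset.prod_congr rfl (fun i _ => ?_)
    rw [map_pow, eval_X]
  rw [hGe]
  refine Submodule.sum_mem _ (fun μ hμ => Submodule.smul_mem _ _ (Submodule.subset_span ?_))
  refine ⟨fun j => ∏ i, (X i : MvPolynomial (Fin m) ℂ) ^ μ (j, i), fun j => ?_, rfl⟩
  have h1 := IsHomogeneous.prod (Finset.univ : Finset (Fin m))
    (fun i => (X i : MvPolynomial (Fin m) ℂ) ^ μ (j, i)) (fun i => μ (j, i))
    (fun i _ => isHomogeneous_X_pow i (μ (j, i)))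
  rwa [hdeg j μ hμ] at h1

/-- substitution of a linear family -/
theorem lin_sub {B m c k : ℕ} {F : (Fin B → Fin m → ℂ) → ℂ} (hF : F ∈ MP B m c)
    (u : Fin B → Fin k → Fin m → ℂ) : ∃ P : MvPolynomial (Fin k) ℂ, P.IsHomogeneous (B * c) ∧
      ∀ t : Fin k → ℂ, eval t P = F (fun j => ∑ β, t β • u j β) := by
  classical
  induction hF using Submodule.span_induction with
  | mem F hF =>
    obtain ⟨q, hq, rfl⟩ := hF
    refine ⟨∏ j, aeval (fun i => ∑ β, C (u j β i) * (X β : MvPolynomial (Fin k) ℂ)) (q j), ?_, ?_⟩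
    · have h1 := IsHomogeneous.prod (Finset.univ : Finset (Fin B))
        (fun j => aeval (fun i => ∑ β, C (u j β i) * (X β : MvPolynomial (Fin k) ℂ)) (q j))
        (fun _ => 1 * c) (fun j _ => by
          apply (hq j).aeval
          intro i
          apply IsHomogeneous.sum
          intro β _
          have := (isHomogeneous_C (Fin k) (u j β i)).mul (isHomogeneous_X ℂ β)
          rwa [zero_add] at this)
      simpa using h1
    · intro t
      rw [map_prod]
      refine Finset.prod_congr rfl (fun j _ => ?_)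
      have h2 : ∀ r : MvPolynomial (Fin m) ℂ,
          eval t (aeval (fun i => ∑ β, C (u j β i) * (X β : MvPolynomial (Fin k) ℂ)) r) =
            eval (∑ β, t β • u j β) r := by
        intro r
        induction r using MvPolynomial.induction_on with
        | C a => simp
        | add r r' h h' => rw [map_add, map_add, map_add, h, h']
        | mul_X r i h =>
          rw [map_mul, map_mul, map_mul, h, aeval_X, eval_X, map_sum, Finset.sum_apply]
          congr 1
          refine Finset.sum_congr rfl (fun β _ => ?_)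
          rw [map_mul, eval_C, eval_X, Pi.smul_apply, smul_eq_mul, mul_comm]
      exact h2 (q j)
  | zero => exact ⟨0, isHomogeneous_zero _ _ _, fun t => by simp⟩
  | add F G _ _ h1 h2 =>
    obtain ⟨P, hP, hP2⟩ := h1
    obtain ⟨Q, hQ, hQ2⟩ := h2
    exact ⟨P + Q, hP.add hQ, fun t => by rw [map_add, hP2, hQ2]; rfl⟩
  | smul a F _ h1 =>
    obtain ⟨P, hP, hP2⟩ := h1
    refine ⟨C a * P, ?_, fun t => by rw [map_mul, eval_C, hP2]; rfl⟩
    have := (isHomogeneous_C (Fin k) a).mul hP
    rwa [zero_add] at this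

/-- the extraction functional is homogeneous of degree `e` in every variable -/
theorem polar_scale {k e N : ℕ} {τ : Fin N → Fin k → ℂ} {α : Fin N → ℂ} (hτ : Polar k e τ α)
    {P : MvPolynomial (Fin k) ℂ} (hP : P.IsHomogeneous (k * e)) (β0 : Fin k) (s : ℂ) :
    ∑ i, α i * eval (fun β => (if β = β0 then s else 1) * τ i β) P =
      s ^ e * ∑ i, α i * eval (τ i) P := by
  classical
  have h1 : ∀ x : Fin N → Fin k → ℂ, ∑ i, α i * eval (x i) P =
      ∑ μ ∈ P.support, coeff μ P * ∑ i, α i * ∏ β, x i β ^ μ β := by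
    intro x
    simp only [eval_eq', Finset.mul_sum]
    rw [Finset.sum_comm]
    refine Finset.sum_congr rfl (fun μ _ => Finset.sum_congr rfl (fun i _ => ?_))
    ring
  rw [h1 (fun i β => (if β = β0 then s else 1) * τ i β), h1 τ, Finset.mul_sum]
  refine Finset.sum_congr rfl (fun μ hμ => ?_)
  have hd : ∑ β, μ β = k * e := by
    have h2 := hP (mem_support_iff.1 hμ)
    rw [Finsupp.weight_apply, Finsupp.sum_fintype _ _ (fun _ => by simp)] at h2
    simpa using h2
  have h3 : ∀ i, ∏ β, ((if β = β0 then s else 1) * τ i β) ^ μ β =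
      s ^ μ β0 * ∏ β, τ i β ^ μ β := by
    intro i
    have h4 : ∀ β, ((if β = β0 then s else 1) * τ i β) ^ μ β =
        (if β = β0 then s ^ μ β else 1) * τ i β ^ μ β := by
      intro β
      rw [mul_pow]
      split_ifs
      · rfl
      · rw [one_pow]
    rw [Finset.prod_congr rfl (fun β _ => h4 β), Finset.prod_mul_distrib,
      Finset.prod_ite_eq' Finset.univ β0 (fun β => s ^ μ β), if_pos (Finset.mem_univ β0)]
  have h5 : ∑ i, α i * ∏ β, ((if β = β0 then s else 1) * τ i β) ^ μ β =
      s ^ μ β0 * ∑ i, α i * ∏ β, τ i β ^ μ β := by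
    rw [Finset.mul_sum]
    refine Finset.sum_congr rfl (fun i _ => ?_)
    rw [h3 i]; ring
  show coeff μ P * ∑ i, α i * ∏ β, ((if β = β0 then s else 1) * τ i β) ^ μ β = _
  rw [h5, hτ (fun β => μ β) hd]
  by_cases hμe : (fun β => μ β) = fun _ => e
  · rw [if_pos hμe]
    have : μ β0 = e := congrFun hμe β0
    rw [this]; ring
  · rw [if_neg hμe]; ring

/-- the entries of the frame -/
theorem Yb_apply {r : ℕ} (w : Fin (nn r) → Fin (r + 1) → ℂ) (x y : Fin (r + 1)) :
    Yb w x y = ((WA w).updateRow y (Pi.single x 1)).det * ((WB w y).det * (WC w).det) := by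
  rw [Yb, Matrix.mul_diagonal, Matrix.adjugate_apply]

/-- scaling of the points of a block -/
theorem Yb_smul {r : ℕ} (w : Fin (nn r) → Fin (r + 1) → ℂ) (e : Fin (nn r) → ℂ) :
    Yb (fun l => e l • w l) = (∏ l, e l) • Yb w := by
  classical
  ext x y
  rw [Matrix.smul_apply, smul_eq_mul, Yb_apply, Yb_apply]
  have hA : ((WA (fun l => e l • w l)).updateRow y (Pi.single x 1)) =
      Matrix.of (fun i j => (if i = y then 1 else e (Fin.castAdd _ i)) *
        ((WA w).updateRow y (Pi.single x 1)) i j) := by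
    ext i j
    rw [Matrix.of_apply, Matrix.updateRow_apply, Matrix.updateRow_apply]
    split_ifs with h
    · rw [one_mul]
    · rfl
  have hB : WB (fun l => e l • w l) y = Matrix.of (fun i j =>
      (Fin.cons (e (Fin.castAdd _ y)) (fun u : Fin r =>
        e (Fin.natAdd (r + 1) (Fin.castAdd (r + 1) u))) : Fin (r + 1) → ℂ) i * WB w y i j) := by
    ext i j
    refine Fin.cases ?_ (fun u => ?_) i
    · rfl
    · rfl
  have hC : WC (fun l => e l • w l) = Matrix.of (fun v j =>
      e (Fin.natAdd (r + 1) (Fin.natAdd r v)) * WC w v j) := rfl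
  rw [hA, hB, hC, Matrix.det_mul_column, Matrix.det_mul_column, Matrix.det_mul_column,
    Fin.prod_univ_succ (fun i => (Fin.cons (e (Fin.castAdd _ y)) (fun u : Fin r =>
        e (Fin.natAdd (r + 1) (Fin.castAdd (r + 1) u))) : Fin (r + 1) → ℂ) i)]
  simp only [Fin.cons_zero, Fin.cons_succ]
  have h1 : ∏ l, e l = (∏ i, e (Fin.castAdd (r + (r + 1)) i)) *
      ((∏ u, e (Fin.natAdd (r + 1) (Fin.castAdd (r + 1) u))) *
        ∏ v, e (Fin.natAdd (r + 1) (Fin.natAdd r v))) := by
    rw [Fin.prod_univ_add, Fin.prod_univ_add (fun i => e (Fin.natAdd (r + 1) i))]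
  have h2 : (∏ i, (if i = y then 1 else e (Fin.castAdd (r + (r + 1)) i))) *
      e (Fin.castAdd (r + (r + 1)) y) = ∏ i, e (Fin.castAdd (r + (r + 1)) i) := by
    rw [← Finset.prod_erase_mul Finset.univ _ (Finset.mem_univ y),
      ← Finset.prod_erase_mul Finset.univ (fun i => e (Fin.castAdd (r + (r + 1)) i))
        (Finset.mem_univ y), if_pos rfl, mul_one]
    congr 1
    refine Finset.prod_congr rfl (fun i hi => ?_)
    rw [if_neg (Finset.ne_of_mem_erase hi)]
  rw [h1, ← h2]
  ring

theorem vm {n k : ℕ} (v : Fin n → ℂ) (t : Fin k → ℂ) (Y : Fin k → Matrix (Fin n) (Fin n) ℂ)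
    (H : Matrix (Fin n) (Fin n) ℂ) :
    Matrix.vecMul v ((∑ β, t β • Y β) * H) = ∑ β, t β • Matrix.vecMul v (Y β * H) := by
  rw [Finset.sum_mul, Matrix.vecMul_sum]
  refine Finset.sum_congr rfl (fun β _ => ?_)
  rw [Matrix.smul_mul, Matrix.vecMul_smul]

theorem pf_Yb {r k : ℕ} (β : Fin k) (x y : Fin (r + 1)) :
    PF (fun p : Fin (k * nn r) → Fin (r + 1) → ℂ => Yb (pt p β) x y) := by
  classical
  simp only [Yb_apply]
  refine pf_mul (pf_det _ (fun i j => ?_)) (pf_mul (pf_det _ (fun i j => ?_))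
    (pf_det _ (fun i j => ?_)))
  · simp only [Matrix.updateRow_apply]
    by_cases h : i = y
    · simp only [if_pos h]
      exact pf_const _
    · simp only [if_neg h]
      exact pf_coord _ _
  · refine Fin.cases ?_ (fun u => ?_) i
    · exact pf_coord _ _
    · exact pf_coord _ _
  · exact pf_coord _ _

/-- **Row V2.** -/
theorem v2 : ∀ {r k c N : ℕ} (τ : Fin N → Fin k → ℂ) (α : Fin N → ℂ),
    Polar k (nn r * c) τ α → ∀ (H : Matrix (Fin (r + 1)) (Fin (r + 1)) ℂ)
    (F : (Fin (k * nn r) → Fin (r + 1) → ℂ) → ℂ), F ∈ MP (k * nn r) (r + 1) c →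
    TH τ α H F ∈ MP (k * nn r) (r + 1) (3 * (r + 1) * c) := by
  classical
  intro r k c N τ α hτ H F hF
  apply MP_of
  · show PF (fun p => ∑ i, α i * F (fun j => Matrix.vecMul (p j) (YY (τ i) p * H)))
    refine pf_sum _ _ (fun i _ => pf_mul (pf_const _) (pf_MP hF _ (fun j x => ?_)))
    show PF (fun p => ∑ l, p j l * (YY (τ i) p * H) l x)
    refine pf_sum _ _ (fun l _ => pf_mul (pf_coord _ _) ?_)
    show PF (fun p => ∑ y, YY (τ i) p l y * H y x)
    refine pf_sum _ _ (fun y _ => pf_mul ?_ (pf_const _))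
    have e : (fun p : Fin (k * nn r) → Fin (r + 1) → ℂ => YY (τ i) p l y) =
        fun p => ∑ β, τ i β * Yb (pt p β) l y := by
      funext p
      rw [YY, Matrix.sum_apply]
      rfl
    rw [e]
    exact pf_sum _ _ (fun β _ => pf_mul (pf_const _) (pf_Yb β l y))
  · intro p j
    obtain ⟨P, hP, hP2⟩ := lin_sub hF (fun j β => Matrix.vecMul (p j) (Yb (pt p β) * H))
    have hP' : P.IsHomogeneous (k * (nn r * c)) := by
      have e : k * (nn r * c) = k * nn r * c := by ring
      rw [e]; exact hP
    have hval : ∀ t : Fin k → ℂ,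
        F (fun j => Matrix.vecMul (p j) ((∑ β, t β • Yb (pt p β)) * H)) = eval t P := by
      intro t
      rw [hP2]
      congr 1
      funext l
      exact vm _ _ _ _
    have hYY : ∀ t : Fin k → ℂ, YY t (fun l => (if l = j then (2 : ℂ) else 1) • p l) =
        ∑ β, ((if β = (finProdFinEquiv.symm j).1 then (2 : ℂ) else 1) * t β) • Yb (pt p β) := by
      intro t
      rw [YY]
      refine Finset.sum_congr rfl (fun β _ => ?_)
      have h1 : pt (fun l => (if l = j then (2 : ℂ) else 1) • p l) β =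
          fun s => (if finProdFinEquiv (β, s) = j then (2 : ℂ) else 1) • pt p β s := rfl
      rw [h1, Yb_smul, smul_smul]
      congr 1
      rw [mul_comm]
      congr 1
      by_cases hβ : β = (finProdFinEquiv.symm j).1
      · rw [if_pos hβ]
        have h2 : ∀ s, (finProdFinEquiv (β, s) = j) ↔ s = (finProdFinEquiv.symm j).2 := by
          intro s
          rw [← Equiv.eq_symm_apply, Prod.ext_iff]
          exact ⟨fun h => h.2, fun h => ⟨hβ, h⟩⟩
        simp only [h2]
        rw [Finset.prod_ite_eq' Finset.univ _ (fun _ => (2 : ℂ)), if_pos (Finset.mem_univ _)]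
      · rw [if_neg hβ]
        refine Finset.prod_eq_one (fun s _ => if_neg ?_)
        intro h
        apply hβ
        rw [← h, Equiv.symm_apply_apply]
    show ∑ i, α i * F (fun l => Matrix.vecMul ((if l = j then (2 : ℂ) else 1) • p l)
        (YY (τ i) (fun l => (if l = j then (2 : ℂ) else 1) • p l) * H)) =
      2 ^ (3 * (r + 1) * c) * ∑ i, α i * F (fun l => Matrix.vecMul (p l) (YY (τ i) p * H))
    have h3 : ∀ i, F (fun l => Matrix.vecMul ((if l = j then (2 : ℂ) else 1) • p l)
        (YY (τ i) (fun l => (if l = j then (2 : ℂ) else 1) • p l) * H)) =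
        2 ^ c * eval (fun β => (if β = (finProdFinEquiv.symm j).1 then (2 : ℂ) else 1) *
          τ i β) P := by
      intro i
      rw [hYY (τ i), ← hval, ← MP_scale hF _ j 2]
      congr 1
      funext l
      rw [Matrix.smul_vecMul]
    have h4 : ∀ i, F (fun l => Matrix.vecMul (p l) (YY (τ i) p * H)) = eval (τ i) P := fun i =>
      hval (τ i)
    simp only [h3, h4]
    have h5 := polar_scale hτ hP' (finProdFinEquiv.symm j).1 2
    have h6 : ∑ i, α i * (2 ^ c * eval (fun β =>
        (if β = (finProdFinEquiv.symm j).1 then (2 : ℂ) else 1) * τ i β) P) =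
        2 ^ c * ∑ i, α i * eval (fun β =>
          (if β = (finProdFinEquiv.symm j).1 then (2 : ℂ) else 1) * τ i β) P := by
      rw [Finset.mul_sum]
      refine Finset.sum_congr rfl (fun i _ => ?_)
      ring
    rw [h6, h5, ← mul_assoc, ← pow_add]
    congr 2
    show c + ((r + 1) + (r + (r + 1))) * c = 3 * (r + 1) * c
    ring

end Vale.Agent.P181.VT.V2H
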