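import Vale.Agent.P181.R2.H849.GapCore

/-! P181, all few-row shapes: rows W9 and the logarithmic form of W13, from W5 and W8. -/

set_option autoImplicit false

open scoped TensorProduct

namespace Vale.Agent.P181.FR

open Vale.Agent.P181 Vale.Agent.P181.H280

/-- The conclusion of row W5 for one pair `(m, i)`. -/
def W5I (m i : ℕ) : Prop := ∃ a0 : ℕ, ∀ (a B : ℕ) (g : ℕ → ℕ),
    a0 ≤ a → 3 * (m + 1) * a ≤ g i → ∑ j ∈ Finset.Icc 1 m, j * g j = a * B →
    Pos B a m (gw m g)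

/-- The conclusion of row W8 for one pair `(m, i)`. -/
def W8I (m i : ℕ) : Prop := ∃ N : ℕ, ∀ c h R s : ℕ,
    N * (h + 1) ≤ c → R * s ≤ h * h →
    s ^ R ≤ plethMult (2 * i * R) (2 * c) m ((4 * c * R) • om m i)

/-- **Row W9** (literal) from W5 and W8. -/
theorem gap_case_of {m i : ℕ} (hi : 3 ≤ i) (him : i ≤ m) (w5 : W5I m i) (w8 : W8I m i) :
    ∃ C : ℕ, ∀ (a b : ℕ) (g : ℕ → ℕ),
    C ≤ a → b + 1 ≤ a ^ 2 → ∑ j ∈ Finset.Icc 1 m, j * g j = a * b → C * a ^ 2 ≤ g i →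
    plethMult a b m (gw m g) ≤ plethMult b a m (gw m g) := by
  obtain ⟨a0, hpos⟩ := w5
  obtain ⟨N, hrich⟩ := w8
  obtain ⟨t, ht⟩ : ∃ t, t = 8 * m * (2 * N + 1) := ⟨_, rfl⟩
  obtain ⟨K, hK⟩ : ∃ K, K = t * (2 * N + 1) := ⟨_, rfl⟩
  have ht1 : 1 ≤ t := by
    rw [ht]
    exact Nat.mul_pos (by omega) (by omega)
  have hK1 : 1 ≤ K := by
    rw [hK]
    exact Nat.mul_pos ht1 (by omega)
  refine ⟨K * (2 * K + 2 * N + a0 + 2) + 15 * (m + 1) + m ^ 2, ?_⟩
  intro a b g hCa hb2 hsum hCg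
  obtain ⟨C, hC⟩ : ∃ C, C = K * (2 * K + 2 * N + a0 + 2) + 15 * (m + 1) + m ^ 2 := ⟨_, rfl⟩
  rw [← hC] at hCa hCg
  have ha1 : 1 ≤ a := by
    have : 15 * (m + 1) ≤ C := by rw [hC]; omega
    omega
  obtain ⟨s, hs⟩ : ∃ s, s = a / K := ⟨_, rfl⟩
  have hs1 : 2 * K + 2 * N + a0 + 2 ≤ s := by
    rw [hs, Nat.le_div_iff_mul_le hK1]
    have : (2 * K + 2 * N + a0 + 2) * K = K * (2 * K + 2 * N + a0 + 2) := Nat.mul_comm _ _
    omega
  have hs2 : K * s ≤ a := by rw [hs]; exact Nat.mul_div_le _ _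
  have hs3 : a ≤ K * s + K := by
    have h1 := Nat.div_add_mod a K
    have h2 := Nat.mod_lt a hK1
    rw [← hs] at h1
    omega
  have hs4 : a ≤ 2 * K * s := by
    have : K * 1 ≤ K * s := Nat.mul_le_mul_left _ (by omega)
    have e : 2 * K * s = K * s + K * s := by ring
    omega
  -- `h = t s`, `c = N (t s + 1)`
  have hc : N * (t * s + 1) * 2 + a0 + 1 ≤ a := by
    have h1 : K * s = 2 * (N * (t * s)) + t * s := by rw [hK]; ring
    have h2 : N * (t * s + 1) * 2 = 2 * (N * (t * s)) + 2 * N := by ring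
    have h3 : 1 * s ≤ t * s := Nat.mul_le_mul_right _ ht1
    omega
  have hi1 : i * g i ≤ a * b := by
    rw [← hsum]
    exact Finset.single_le_sum (f := fun j => j * g j) (fun _ _ => Nat.zero_le _)
      (Finset.mem_Icc.2 ⟨by omega, him⟩)
  have hb1 : i * (C * a) ≤ b := by
    have h1 : a * (i * (C * a)) ≤ a * b := by
      calc a * (i * (C * a)) = i * (C * a ^ 2) := by ring
        _ ≤ i * g i := Nat.mul_le_mul_left _ hCg
        _ ≤ a * b := hi1
    exact Nat.le_of_mul_le_mul_left h1 ha1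
  refine gap_core (N := N) (a0 := a0) (c := N * (t * s + 1)) (h := t * s) (R := 4 * m * a)
    (s := s) (by omega) him hpos hrich hsum le_rfl ?_ ?_ (by omega) ?_ ?_ ?_
  · calc 4 * m * a * s ≤ 4 * m * (2 * K * s) * s :=
          Nat.mul_le_mul_right _ (Nat.mul_le_mul_left _ hs4)
      _ = (8 * m * K) * (s * s) := by ring
      _ = t * s * (t * s) := by
          have : 8 * m * K = t * t := by rw [hK, ht]; ring
          rw [this]; ring
  · have h1 : a ≤ s ^ 2 := by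
      have h2 : 2 * K * s ≤ s * s := Nat.mul_le_mul_right _ (by omega)
      calc a ≤ 2 * K * s := hs4
        _ ≤ s * s := h2
        _ = s ^ 2 := by ring
    calc (b + 1) ^ (m * a) ≤ (a ^ 2) ^ (m * a) := Nat.pow_le_pow_left hb2 _
      _ ≤ ((s ^ 2) ^ 2) ^ (m * a) := Nat.pow_le_pow_left (Nat.pow_le_pow_left h1 _) _
      _ = s ^ (4 * m * a) := by rw [← pow_mul, ← pow_mul]; congr 1; ring
  · have : 1 * 1 ≤ m * a := Nat.mul_le_mul (by omega) ha1
    have e : 2 * (4 * m * a) = 8 * (m * a) := by ring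
    have : m * 1 ≤ m * a := Nat.mul_le_mul_left _ ha1
    omega
  · have h1 : 8 * m + 3 * (m + 1) + m ^ 2 ≤ C := by rw [hC]; omega
    calc 2 * i * (4 * m * a) + 3 * i * (m + 1) + i * m ^ 2
        = i * (8 * m * a + (3 * (m + 1) + m ^ 2) * 1) := by ring
      _ ≤ i * (8 * m * a + (3 * (m + 1) + m ^ 2) * a) :=
          Nat.mul_le_mul_left _ (Nat.add_le_add_left (Nat.mul_le_mul_left _ ha1) _)
      _ = i * ((8 * m + 3 * (m + 1) + m ^ 2) * a) := by ring
      _ ≤ i * (C * a) := Nat.mul_le_mul_left _ (Nat.mul_le_mul_right _ h1)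
      _ ≤ b := hb1
  · have h1 : 8 * m + 7 * (m + 1) ≤ C := by rw [hC]; omega
    have h2 : N * (t * s + 1) * 2 ≤ a := by omega
    have h3 : a * 1 ≤ a * a := Nat.mul_le_mul_left _ ha1
    calc 4 * (N * (t * s + 1)) * (4 * m * a) + 6 * (m + 1) * a + m
        = 8 * m * (N * (t * s + 1) * 2 * a) + 6 * (m + 1) * a + m := by ring
      _ ≤ 8 * m * (a * a) + 6 * (m + 1) * (a * a) + (m + 1) * (a * a) := by
          have h4 : N * (t * s + 1) * 2 * a ≤ a * a := Nat.mul_le_mul_right _ h2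
          have h5 : 8 * m * (N * (t * s + 1) * 2 * a) ≤ 8 * m * (a * a) :=
            Nat.mul_le_mul_left _ h4
          have h6 : 6 * (m + 1) * a ≤ 6 * (m + 1) * (a * a) :=
            Nat.mul_le_mul_left _ (by omega)
          have h7 : (m + 1) * 1 ≤ (m + 1) * (a * a) := Nat.mul_le_mul_left _ (by omega)
          omega
      _ = (8 * m + 7 * (m + 1)) * a ^ 2 := by ring
      _ ≤ C * a ^ 2 := Nat.mul_le_mul_right _ h1
      _ ≤ g i := hCg

/-- **Row W13, logarithmic form**, from W5 and W8. -/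
theorem gap_log_of {m i : ℕ} (hi : 3 ≤ i) (him : i ≤ m) (w5 : W5I m i) (w8 : W8I m i) :
    ∃ C : ℕ, ∀ (a b L : ℕ) (g : ℕ → ℕ), 1 ≤ L → b + 1 ≤ 2 ^ L → C * L ≤ a →
    C * (a * L) ≤ b → ∑ j ∈ Finset.Icc 1 m, j * g j = a * b → C * (a * L) ^ 3 ≤ (g i) ^ 2 →
    plethMult a b m (gw m g) ≤ plethMult b a m (gw m g) := by
  obtain ⟨a0, hpos⟩ := w5
  obtain ⟨N, hrich⟩ := w8
  obtain ⟨K, hK⟩ : ∃ K, K = 8 * (N + 1) := ⟨_, rfl⟩
  obtain ⟨C, hC⟩ : ∃ C, C = 2 * m * K ^ 2 + 2 * (a0 + 4 * N + 1) + i * (2 * m + 3 * (m + 1) + m ^ 2)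
    + (12 * N * m + 7 * (m + 1)) ^ 2 * (2 * m) + 4 := ⟨_, rfl⟩
  refine ⟨C, ?_⟩
  intro a b L g hL1 hL hCa hCb hsum hCg
  have hC1 : C ≤ a := (Nat.le_mul_of_pos_right C hL1).trans hCa
  have ha4 : 4 ≤ a := by omega
  obtain ⟨P, hP⟩ : ∃ P, P = a * L := ⟨_, rfl⟩
  rw [← hP] at hCb hCg
  have haP : a ≤ P := by rw [hP]; exact Nat.le_mul_of_pos_right a hL1
  obtain ⟨q, hq⟩ : ∃ q, q = Nat.sqrt (2 * (m * P)) := ⟨_, rfl⟩
  have hq1 : q * q ≤ 2 * (m * P) := by rw [hq]; exact Nat.sqrt_le _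
  have hq2 : 2 * (m * P) < (q + 1) * (q + 1) := by rw [hq]; exact Nat.lt_succ_sqrt _
  have hmP : 3 * 4 ≤ m * P := Nat.mul_le_mul (by omega) (by omega)
  have hq0 : 1 ≤ q := by
    rcases Nat.eq_zero_or_pos q with h | h
    · rw [h] at hq2; omega
    · exact h
  have hKq : K * q ≤ a := by
    have h1 : (K * q) ^ 2 ≤ a ^ 2 := by
      calc (K * q) ^ 2 = K ^ 2 * (q * q) := by ring
        _ ≤ K ^ 2 * (2 * (m * P)) := Nat.mul_le_mul_left _ hq1
        _ = (2 * m * K ^ 2 * L) * a := by rw [hP]; ring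
        _ ≤ (C * L) * a := by
            apply Nat.mul_le_mul_right
            apply Nat.mul_le_mul_right
            rw [hC]; omega
        _ ≤ a * a := Nat.mul_le_mul_right _ hCa
        _ = a ^ 2 := by ring
    exact (Nat.pow_le_pow_iff_left (by norm_num)).1 h1
  have hc : a0 + 2 * (N * (q + 1 + 1)) + 1 ≤ a := by
    have h1 : 2 * (N * (q + 1 + 1)) = 2 * (N * q) + 4 * N := by ring
    have h2 : K * q = 8 * (N * q) + 8 * q := by rw [hK]; ring
    have h3 : 2 * (a0 + 4 * N + 1) ≤ a := by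
      refine le_trans ?_ hC1
      rw [hC]; omega
    omega
  refine gap_core (N := N) (a0 := a0) (c := N * (q + 1 + 1)) (h := q + 1) (R := m * P)
    (s := 2) (by omega) him hpos hrich hsum le_rfl ?_ ?_ hc ?_ ?_ ?_
  · omega
  · calc (b + 1) ^ (m * a) ≤ (2 ^ L) ^ (m * a) := Nat.pow_le_pow_left hL _
      _ = 2 ^ (m * P) := by rw [← pow_mul, hP]; congr 1; ring
  · have : m * 4 ≤ m * P := Nat.mul_le_mul_left _ (by omega)
    omega
  · have hP1 : 1 ≤ P := by omega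
    calc 2 * i * (m * P) + 3 * i * (m + 1) + i * m ^ 2
        = i * (2 * m * P + (3 * (m + 1) + m ^ 2) * 1) := by ring
      _ ≤ i * (2 * m * P + (3 * (m + 1) + m ^ 2) * P) :=
          Nat.mul_le_mul_left _ (Nat.add_le_add_left (Nat.mul_le_mul_left _ hP1) _)
      _ = i * (2 * m + 3 * (m + 1) + m ^ 2) * P := by ring
      _ ≤ C * P := by
          apply Nat.mul_le_mul_right
          rw [hC]; omega
      _ ≤ b := hCb
  · have h1 : (4 * (N * (q + 1 + 1)) * (m * P) + 6 * (m + 1) * a + m) ≤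
        (12 * N * m + 7 * (m + 1)) * (q * P) := by
      have h2 : N * (q + 1 + 1) ≤ N * (3 * q) := Nat.mul_le_mul_left _ (by omega)
      have h3 : 4 * (N * (q + 1 + 1)) * (m * P) ≤ 4 * (N * (3 * q)) * (m * P) :=
        Nat.mul_le_mul_right _ (Nat.mul_le_mul_left _ h2)
      have h4 : a * 1 ≤ P * q := Nat.mul_le_mul haP hq0
      have h5 : 6 * (m + 1) * a ≤ 6 * (m + 1) * (q * P) :=
        Nat.mul_le_mul_left _ (by rw [Nat.mul_comm q P]; omega)
      have h6 : (m + 1) * 1 ≤ (m + 1) * (q * P) :=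
        Nat.mul_le_mul_left _ (by rw [Nat.mul_comm q P]; omega)
      calc 4 * (N * (q + 1 + 1)) * (m * P) + 6 * (m + 1) * a + m
          ≤ 4 * (N * (3 * q)) * (m * P) + 6 * (m + 1) * (q * P) + (m + 1) * (q * P) := by omega
        _ = _ := by ring
    refine h1.trans ?_
    have h2 : ((12 * N * m + 7 * (m + 1)) * (q * P)) ^ 2 ≤ (g i) ^ 2 := by
      calc ((12 * N * m + 7 * (m + 1)) * (q * P)) ^ 2
          = (12 * N * m + 7 * (m + 1)) ^ 2 * (q * q) * P ^ 2 := by ring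
        _ ≤ (12 * N * m + 7 * (m + 1)) ^ 2 * (2 * (m * P)) * P ^ 2 :=
            Nat.mul_le_mul_right _ (Nat.mul_le_mul_left _ hq1)
        _ = (12 * N * m + 7 * (m + 1)) ^ 2 * (2 * m) * P ^ 3 := by ring
        _ ≤ C * P ^ 3 := by
            apply Nat.mul_le_mul_right
            rw [hC]; omega
        _ ≤ (g i) ^ 2 := hCg
    exact (Nat.pow_le_pow_iff_left (by norm_num)).1 h2

end Vale.Agent.P181.FR
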