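import Vale.Agent.P181.R2.H160.ThreeBulk6
import Vale.Agent.P181.R2.H959.FMul
import Vale.Agent.P181.R2.H182.PtMul

/-! P181, three rows, `b ≥ C a^(5/4)`: rows E1 and E. -/

set_option autoImplicit false

open scoped TensorProduct
open MvPolynomial

namespace Vale.Agent.P181.H553

open Vale.Agent.P181 Vale.Agent.P181.H280 Vale.Agent.P181.FR

/-- ROW E1. Splitting of a partition (fundamental weights `A`, `B`, `C`). -/
theorem split3 {A B C n : ℕ} (h : 6 * n + 6 ≤ A + 2 * B + 3 * C) :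
    ∃ A' B' C' : ℕ, A' ≤ A ∧ B' ≤ B ∧ C' ≤ C ∧ A' + 2 * B' + 3 * C' = 6 * n := by
  by_cases h1 : 2 * n ≤ C
  · exact ⟨0, 0, 2 * n, by omega, by omega, h1, by omega⟩
  by_cases h2 : 2 * B ≤ 6 * n - 3 * C
  · exact ⟨6 * n - 3 * C - 2 * B, B, C, by omega, le_rfl, le_rfl, by omega⟩
  by_cases h3 : (6 * n - 3 * C) % 2 = 0
  · exact ⟨0, (6 * n - 3 * C) / 2, C, by omega, by omega, le_rfl, by omega⟩
  by_cases h4 : 1 ≤ A
  · exact ⟨1, (6 * n - 3 * C) / 2, C, h4, by omega, le_rfl, by omega⟩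
  · exact ⟨0, (6 * n - 3 * C + 3) / 2, C - 1, by omega, by omega, by omega, by omega⟩

/-- ROW E. All three row partitions with a long third row. `m = 2 a L`;
`lam = 100 N m (1,1,1) + kappa + 2 nu + 2 nu'`, `|nu| = (b - 5 m) * 30 N`,
`|nu'| = b * (a - 60 N - c) / 2`. -/
theorem all_long_of
    (corner : ∀ {N m : ℕ}, 0 < N → 2 * m ≤ N * N →
      2 ^ m ≤ plethMult (5 * m) (60 * N) 3 (fun _ => 100 * N * m))
    (pos_even : ∀ {b n : ℕ}, 3 ≤ b → ∀ nu : Fin 3 → ℕ, nu 2 ≤ nu 1 → nu 1 ≤ nu 0 →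
      nu 0 + nu 1 + nu 2 = b * n → Pos b (2 * n) 3 (fun i => 2 * nu i))
    (ptmul : ∀ {B e c : ℕ} {lam mu : Fin 3 → ℕ}, Pos B e 3 mu → Pos B c 3 lam →
      Pos B (e + c) 3 (mu + lam))
    (pos_class : ∀ {a b g1 g2 l3 : ℕ}, 30 ≤ b → g1 + 2 * g2 + 3 * l3 = a * b →
      ∃ c k1 k2 k3 : ℕ, c ≤ 69 ∧ c % 2 = a % 2 ∧ k1 ≤ g1 ∧ k2 ≤ g2 ∧ k1 % 2 = g1 % 2 ∧
        k2 % 2 = g2 % 2 ∧ k1 + 2 * k2 + 3 * k3 = c * b ∧ Pos b c 3 ![k3 + k2 + k1, k3 + k2, k3])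
    {a b L N : ℕ} (lam : Fin 3 → ℕ) (hsum : lam 0 + lam 1 + lam 2 = a * b)
    (h21 : lam 2 ≤ lam 1) (h10 : lam 1 ≤ lam 0) (hL : b + 1 ≤ 2 ^ L) (hN : 4 * a * L ≤ N * N)
    (hN0 : 0 < N) (ha : 60 * N + 72 ≤ a) (hb : 10 * a * L + 30 ≤ b)
    (h3 : 200 * a * L * N + 23 * b ≤ lam 2) :
    plethMult a b 3 lam ≤ plethMult b a 3 lam := by
  obtain ⟨m, hm⟩ : ∃ m : ℕ, m = 2 * a * L := ⟨_, rfl⟩
  -- the upper bound
  have hup : plethMult a b 3 lam ≤ 2 ^ m := by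
    refine (plethMult_le_pow a b lam).trans ?_
    calc ((b + 1) ^ 2) ^ a ≤ ((2 ^ L) ^ 2) ^ a :=
          Nat.pow_le_pow_left (Nat.pow_le_pow_left hL 2) a
      _ = 2 ^ m := by rw [← pow_mul, ← pow_mul, hm]; congr 1; ring
  refine hup.trans ?_
  have h5m : 5 * m + 30 ≤ b := by
    have : 5 * m = 10 * a * L := by rw [hm]; ring
    omega
  have hNm : 200 * a * L * N = 100 * N * m := by rw [hm]; ring
  rw [hNm] at h3
  have h2m : 2 * m ≤ N * N := by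
    have : 2 * m = 4 * a * L := by rw [hm]; ring
    omega
  -- the class of the gaps
  obtain ⟨g1, hg1⟩ := Nat.exists_eq_add_of_le h10
  obtain ⟨g2, hg2⟩ := Nat.exists_eq_add_of_le h21
  obtain ⟨l3, hl3⟩ : ∃ l3 : ℕ, l3 = lam 2 := ⟨_, rfl⟩
  rw [← hl3] at hg2 h3
  have hsum' : g1 + 2 * g2 + 3 * l3 = a * b := by omega
  obtain ⟨c, k1, k2, k3, hc, hca, hk1, hk2, hk1', hk2', hks, hpos⟩ := pos_class (by omega) hsum'
  -- `a = c + 60 N + 2 n'`
  obtain ⟨n', hn'⟩ : ∃ n' : ℕ, a = c + 60 * N + 2 * n' := ⟨(a - c - 60 * N) / 2, by omega⟩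
  have hn'1 : 2 ≤ n' := by omega
  have hcb : 3 * k3 ≤ 69 * b := by
    have : c * b ≤ 69 * b := Nat.mul_le_mul_right b hc
    omega
  have hk3 : 100 * N * m + k3 ≤ l3 := by omega
  -- the products
  obtain ⟨x1, hx1⟩ : ∃ x1 : ℕ, x1 = N * b := ⟨_, rfl⟩
  obtain ⟨x2, hx2⟩ : ∃ x2 : ℕ, x2 = n' * b := ⟨_, rfl⟩
  obtain ⟨x3, hx3⟩ : ∃ x3 : ℕ, x3 = N * m := ⟨_, rfl⟩
  have hab : a * b = c * b + 60 * x1 + 2 * x2 := by rw [hn', hx1, hx2]; ring
  have hNm' : 100 * N * m = 100 * x3 := by rw [hx3]; ring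
  rw [hNm'] at hk3
  obtain ⟨n, hn⟩ : ∃ n : ℕ, n = 5 * N * (b - 5 * m) := ⟨_, rfl⟩
  have hn2 : n + 25 * x3 = 5 * x1 := by
    have : b = (b - 5 * m) + 5 * m := by omega
    rw [hn, hx3, hx1]
    conv_rhs => rw [this]
    ring
  have hx2b : 2 * b ≤ x2 := by rw [hx2]; exact Nat.mul_le_mul_right b hn'1
  -- fundamental coordinates of the even rest
  obtain ⟨A, hA⟩ : ∃ A : ℕ, g1 = k1 + 2 * A := ⟨(g1 - k1) / 2, by omega⟩
  obtain ⟨B, hB⟩ : ∃ B : ℕ, g2 = k2 + 2 * B := ⟨(g2 - k2) / 2, by omega⟩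
  have hpar : (l3 - k3) % 2 = 0 := by omega
  obtain ⟨D, hD⟩ : ∃ D : ℕ, l3 = k3 + 100 * x3 + 2 * D := ⟨(l3 - k3 - 100 * x3) / 2, by omega⟩
  have hABD : A + 2 * B + 3 * D + 150 * x3 = 30 * x1 + x2 := by omega
  obtain ⟨A', B', D', hA', hB', hD', hs'⟩ := split3 (A := A) (B := B) (C := D) (n := n) (by omega)
  -- the two even factors
  have p1 : Pos (b - 5 * m) (2 * (30 * N)) 3 (fun i => 2 * (![D' + B' + A', D' + B', D'] : Fin 3 → ℕ) i) := by
    refine pos_even (by omega) _ ?_ ?_ ?_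
    · show D' ≤ D' + B'
      omega
    · show D' + B' ≤ D' + B' + A'
      omega
    · show D' + B' + A' + (D' + B') + D' = (b - 5 * m) * (30 * N)
      have : (b - 5 * m) * (30 * N) = 6 * n := by rw [hn]; ring
      omega
  have p2 : Pos b (2 * n') 3 (fun i => 2 * (![(D - D') + (B - B') + (A - A'), (D - D') + (B - B'),
      D - D'] : Fin 3 → ℕ) i) := by
    refine pos_even (by omega) _ ?_ ?_ ?_
    · show D - D' ≤ (D - D') + (B - B')
      omega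
    · show (D - D') + (B - B') ≤ (D - D') + (B - B') + (A - A')
      omega
    · show (D - D') + (B - B') + (A - A') + ((D - D') + (B - B')) + (D - D') = b * n'
      rw [mul_comm b n', ← hx2]
      omega
  have q0 := corner hN0 h2m
  have e60 : 2 * (30 * N) = 60 * N := by ring
  rw [e60] at p1
  have q1 := plethMult_mul (b := 5 * m) (lam := fun _ => 100 * N * m) p1
  have q2 := plethMult_pt (c := 60 * N) (lam := (fun _ => 100 * N * m) +
    (fun i => 2 * (![D' + B' + A', D' + B', D'] : Fin 3 → ℕ) i)) (ptmul p2 hpos)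
  have eb : 5 * m + (b - 5 * m) = b := by omega
  rw [eb] at q1
  have ea : 2 * n' + c + 60 * N = a := by omega
  rw [ea] at q2
  have elam : (fun i => 2 * (![(D - D') + (B - B') + (A - A'), (D - D') + (B - B'),
      D - D'] : Fin 3 → ℕ) i) + ![k3 + k2 + k1, k3 + k2, k3] + ((fun _ => 100 * N * m) +
      (fun i => 2 * (![D' + B' + A', D' + B', D'] : Fin 3 → ℕ) i)) = lam := by
    rw [hNm']
    funext i
    fin_cases i
    · show 2 * ((D - D') + (B - B') + (A - A')) + (k3 + k2 + k1) +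
        (100 * x3 + 2 * (D' + B' + A')) = lam 0
      omega
    · show 2 * ((D - D') + (B - B')) + (k3 + k2) + (100 * x3 + 2 * (D' + B')) = lam 1
      omega
    · show 2 * (D - D') + k3 + (100 * x3 + 2 * D') = lam 2
      omega
  rw [elam] at q2
  exact q0.trans (q1.trans q2)

end Vale.Agent.P181.H553
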