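import Vale.Agent.P181.R2.H959.FDefs

/-! Row R10 of P181.FewRowsInterior: the span `Eb` is stable under the Borel subgroup. -/

set_option autoImplicit false

open scoped TensorProduct

namespace Vale.Agent.P181.FR

open Vale.Agent.P181 Vale.Agent.P181.H280 Vale.Agent.P181.H54 MvPolynomial

theorem Eb_stable {b a n k0 : ℕ} : ∀ g, IsBorel g → ∀ x ∈ Eb b a n k0,
    plethAct b a (n + 1) g x ∈ Eb b a n k0 := by
  intro g hg x hx
  have key : Eb b a n k0 ≤ (Eb b a n k0).comap (plethAct b a (n + 1) g) := by
    refine Submodule.span_le.2 ?_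
    rintro y ⟨v, S, hS, hv, rfl⟩
    refine Submodule.subset_span ⟨fun j i => Matrix.toLin' g (v j i), S, hS, ?_, ?_⟩
    · intro p hp
      obtain ⟨c, hc⟩ := hv p hp
      refine ⟨c * g 0 0, ?_⟩
      have h1 := borel_e0 hg
      rw [e0] at h1
      change Matrix.toLin' g (v p.1 p.2) = _
      rw [hc, map_smul, h1, smul_smul]
    · have h1 : (fun j => SymmetricPower.tprod ℂ (fun i => Matrix.toLin' g (v j i))) =
          fun j => symMap a (Matrix.toLin' g) (SymmetricPower.tprod ℂ (v j)) := by
        funext j
        rw [symMap_tprod]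
      change symMap b (symMap a (Matrix.toLin' g)) (SymmetricPower.tprod ℂ
        (fun j => SymmetricPower.tprod ℂ (v j))) = _
      rw [h1, symMap_tprod]
  exact key hx

end Vale.Agent.P181.FR
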