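import Vale.Agent.P181.R2.H959.WDefs
import Vale.Agent.P181.R2.H959.FMul
import Vale.Agent.P181.R2.H959.FPow
import Vale.Agent.P181.R2.H182.PtMul

/-! P181, all few-row shapes: the case of a long gap `g i` (rows W9, W13), common core. -/

set_option autoImplicit false

open scoped TensorProduct

namespace Vale.Agent.P181.FR

open Vale.Agent.P181 Vale.Agent.P181.H280

/-- Greedy choice. -/
theorem greedy (W : ℕ) (w n : ℕ → ℕ) (S : Finset ℕ) (hw : ∀ j ∈ S, 0 < w j)
    (hW : ∀ j ∈ S, w j ≤ W) (T : ℕ) (hT : T ≤ ∑ j ∈ S, w j * n j) :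
    ∃ x : ℕ → ℕ, (∀ j, x j ≤ n j) ∧ T ≤ ∑ j ∈ S, w j * x j ∧ ∑ j ∈ S, w j * x j ≤ T + W := by
  classical
  induction S using Finset.induction_on generalizing T with
  | empty =>
    refine ⟨fun _ => 0, fun j => Nat.zero_le _, ?_, ?_⟩
    · simpa using hT
    · simp
  | insert j S hj ih =>
    by_cases h : T ≤ ∑ j ∈ S, w j * n j
    · obtain ⟨x, hx, h1, h2⟩ := ih (fun k hk => hw k (Finset.mem_insert_of_mem hk))
        (fun k hk => hW k (Finset.mem_insert_of_mem hk)) T h
      refine ⟨fun k => if k ∈ S then x k else 0, fun k => ?_, ?_, ?_⟩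
      · show (if k ∈ S then x k else 0) ≤ n k
        split_ifs
        · exact hx k
        · exact Nat.zero_le _
      all_goals
        have e : ∑ k ∈ insert j S, w k * (if k ∈ S then x k else 0) = ∑ k ∈ S, w k * x k := by
          rw [Finset.sum_insert hj, if_neg hj, mul_zero, zero_add]
          exact Finset.sum_congr rfl (fun k hk => by rw [if_pos hk])
        rw [e]
        assumption
    · push Not at h
      rw [Finset.sum_insert hj] at hT
      have hwj := hw j (Finset.mem_insert_self _ _)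
      have hWj := hW j (Finset.mem_insert_self _ _)
      obtain ⟨D, hD⟩ : ∃ D, T = ∑ k ∈ S, w k * n k + D := ⟨T - ∑ k ∈ S, w k * n k, by omega⟩
      have hD1 : D ≤ w j * n j := by omega
      have hq1 : (D + w j - 1) / w j ≤ n j := by
        apply Nat.le_of_lt_succ
        rw [Nat.div_lt_iff_lt_mul hwj]
        have : (n j).succ * w j = w j * n j + w j := by rw [Nat.succ_mul, mul_comm]
        omega
      have hq2 : D ≤ w j * ((D + w j - 1) / w j) := by
        have h3 := Nat.div_add_mod (D + w j - 1) (w j)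
        have h4 := Nat.mod_lt (D + w j - 1) hwj
        omega
      have hq3 : w j * ((D + w j - 1) / w j) ≤ D + w j - 1 := Nat.mul_div_le _ _
      refine ⟨fun k => if k = j then (D + w j - 1) / w j else n k, fun k => ?_, ?_, ?_⟩
      · show (if k = j then (D + w j - 1) / w j else n k) ≤ n k
        split_ifs with hk
        · rw [hk]; exact hq1
        · exact le_rfl
      all_goals
        have e : ∑ k ∈ insert j S, w k * (if k = j then (D + w j - 1) / w j else n k) =
            w j * ((D + w j - 1) / w j) + ∑ k ∈ S, w k * n k := by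
          rw [Finset.sum_insert hj, if_pos rfl]
          congr 1
          exact Finset.sum_congr rfl (fun k hk => by
            rw [if_neg (show ¬ k = j from fun hkj => hj (hkj ▸ hk))])
        rw [e]
        omega

/-- The splitting of the gaps. -/
theorem gap_split {m i a b c R : ℕ} {g : ℕ → ℕ} (hi : 1 ≤ i) (him : i ≤ m)
    (hsum : ∑ j ∈ Finset.Icc 1 m, j * g j = a * b) (ha : 2 * c + 1 ≤ a)
    (hR : 4 * (m + 1) ≤ 2 * R) (hb : 2 * i * R + 3 * i * (m + 1) + i * m ^ 2 ≤ b)
    (hg : 4 * c * R + 6 * (m + 1) * a + m ≤ g i) :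
    ∃ g0 g1 : ℕ → ℕ, (∀ j ∈ Finset.Icc 1 m, j ≠ i → g j = g0 j + g1 j) ∧
      g i = 4 * c * R + g0 i + g1 i ∧ 3 * (m + 1) * (a - 2 * c) ≤ g0 i ∧
      3 * (m + 1) * a ≤ g1 i ∧ ∑ j ∈ Finset.Icc 1 m, j * g0 j = (a - 2 * c) * (2 * i * R) ∧
      ∑ j ∈ Finset.Icc 1 m, j * g1 j = a * (b - 2 * i * R) := by
  classical
  have hmem : i ∈ Finset.Icc 1 m := Finset.mem_Icc.2 ⟨hi, him⟩
  -- the capacity
  have hcap : 2 * R * a + 3 * (m + 1) * a ≤
      g i + ∑ j ∈ (Finset.Icc 1 m).erase i, j * (g j / i) := by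
    have h1 : i * g i + ∑ j ∈ (Finset.Icc 1 m).erase i, j * g j = a * b := by
      rw [← hsum, ← Finset.add_sum_erase _ _ hmem]
    have h2 : ∑ j ∈ (Finset.Icc 1 m).erase i, j * g j ≤
        i * ∑ j ∈ (Finset.Icc 1 m).erase i, j * (g j / i) + i * m ^ 2 := by
      have h3 : ∀ j ∈ (Finset.Icc 1 m).erase i, j * g j ≤ i * (j * (g j / i)) + i * m := by
        intro j hj
        have hj2 := (Finset.mem_Icc.1 (Finset.mem_of_mem_erase hj)).2
        have h4 := Nat.div_add_mod (g j) i
        have h5 := Nat.mod_lt (g j) hi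
        calc j * g j = j * (i * (g j / i) + g j % i) := by rw [h4]
          _ = i * (j * (g j / i)) + j * (g j % i) := by ring
          _ ≤ i * (j * (g j / i)) + m * i := Nat.add_le_add_left (Nat.mul_le_mul hj2 h5.le) _
          _ = _ := by ring
      calc ∑ j ∈ (Finset.Icc 1 m).erase i, j * g j
          ≤ ∑ j ∈ (Finset.Icc 1 m).erase i, (i * (j * (g j / i)) + i * m) :=
            Finset.sum_le_sum h3
        _ = i * ∑ j ∈ (Finset.Icc 1 m).erase i, j * (g j / i) +
            ((Finset.Icc 1 m).erase i).card * (i * m) := by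
            rw [Finset.sum_add_distrib, Finset.mul_sum, Finset.sum_const, smul_eq_mul]
        _ ≤ i * ∑ j ∈ (Finset.Icc 1 m).erase i, j * (g j / i) + m * (i * m) := by
            have : ((Finset.Icc 1 m).erase i).card ≤ m := by
              refine (Finset.card_le_card (Finset.erase_subset _ _)).trans ?_
              rw [Nat.card_Icc]; omega
            exact Nat.add_le_add_left (Nat.mul_le_mul_right _ this) _
        _ = _ := by ring
    have h3 : a * (2 * i * R + 3 * i * (m + 1) + i * m ^ 2) ≤ a * b := Nat.mul_le_mul_left _ hb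
    have h4 : i * m ^ 2 ≤ a * (i * m ^ 2) := Nat.le_mul_of_pos_left _ (by omega)
    have h5 : i * (2 * R * a + 3 * (m + 1) * a) ≤
        i * (g i + ∑ j ∈ (Finset.Icc 1 m).erase i, j * (g j / i)) := by
      have e1 : a * (2 * i * R + 3 * i * (m + 1) + i * m ^ 2) =
          i * (2 * R * a + 3 * (m + 1) * a) + a * (i * m ^ 2) := by ring
      have e2 : i * (g i + ∑ j ∈ (Finset.Icc 1 m).erase i, j * (g j / i)) =
          i * g i + i * ∑ j ∈ (Finset.Icc 1 m).erase i, j * (g j / i) := by ring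
      rw [e2]
      omega
    exact Nat.le_of_mul_le_mul_left h5 hi
  obtain ⟨x, hx, hx1, hx2⟩ := greedy m (fun j => j) (fun j => g j / i)
    ((Finset.Icc 1 m).erase i)
    (fun j hj => (Finset.mem_Icc.1 (Finset.mem_of_mem_erase hj)).1)
    (fun j hj => (Finset.mem_Icc.1 (Finset.mem_of_mem_erase hj)).2)
    (2 * R * a + 3 * (m + 1) * a - g i) (by
      show 2 * R * a + 3 * (m + 1) * a - g i ≤
        ∑ j ∈ (Finset.Icc 1 m).erase i, j * (g j / i)
      omega)
  obtain ⟨Y, hY⟩ : ∃ Y, Y = ∑ j ∈ (Finset.Icc 1 m).erase i, j * x j := ⟨_, rfl⟩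
  have hx1' : 2 * R * a + 3 * (m + 1) * a - g i ≤ Y := by rw [hY]; exact hx1
  have hx2' : Y ≤ 2 * R * a + 3 * (m + 1) * a - g i + m := by rw [hY]; exact hx2
  obtain ⟨e, he⟩ : ∃ e, a = 2 * c + e := ⟨a - 2 * c, by omega⟩
  have he0 : a - 2 * c = e := by omega
  rw [he0]
  have he1 : 1 ≤ e := by omega
  -- room for `g0 i`
  have hroom : Y + 3 * (m + 1) * e ≤ 2 * R * e := by
    by_cases hT : 2 * R * a + 3 * (m + 1) * a ≤ g i
    · have h1 : Y ≤ m := by omega
      have h2 : 4 * (m + 1) * e ≤ 2 * R * e := Nat.mul_le_mul_right _ hR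
      have h3 : 4 * (m + 1) * e = 3 * (m + 1) * e + (m + 1) * e := by ring
      have h4 : (m + 1) * 1 ≤ (m + 1) * e := Nat.mul_le_mul_left _ he1
      omega
    · have h1 : Y + g i ≤ 2 * R * a + 3 * (m + 1) * a + m := by omega
      have h2 : 2 * R * a = 4 * c * R + 2 * R * e := by rw [he]; ring
      have h3 : 3 * (m + 1) * e ≤ 3 * (m + 1) * a := Nat.mul_le_mul_left _ (by omega)
      have h4 : 6 * (m + 1) * a = 3 * (m + 1) * a + 3 * (m + 1) * a := by ring
      omega
  have hg1 : 2 * R * e - Y + 4 * c * R + 3 * (m + 1) * a ≤ g i := by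
    have h2 : 2 * R * a = 4 * c * R + 2 * R * e := by rw [he]; ring
    omega
  have s0 : ∑ j ∈ Finset.Icc 1 m, j * (if j = i then 2 * R * e - Y else i * x j) =
      e * (2 * i * R) := by
    rw [← Finset.add_sum_erase _ _ hmem, if_pos rfl]
    have e1 : ∑ j ∈ (Finset.Icc 1 m).erase i, j * (if j = i then 2 * R * e - Y else i * x j) =
        i * Y := by
      rw [hY, Finset.mul_sum]
      refine Finset.sum_congr rfl (fun j hj => ?_)
      rw [if_neg (Finset.ne_of_mem_erase hj)]
      ring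
    rw [e1, ← mul_add, Nat.sub_add_cancel (by omega)]
    ring
  refine ⟨fun j => if j = i then 2 * R * e - Y else i * x j,
    fun j => if j = i then g i - 4 * c * R - (2 * R * e - Y) else g j - i * x j,
    ?_, ?_, ?_, ?_, s0, ?_⟩
  · intro j _ hj
    show g j = (if j = i then _ else i * x j) + (if j = i then _ else g j - i * x j)
    rw [if_neg hj, if_neg hj]
    have h1 : i * x j ≤ g j := (Nat.mul_le_mul_left _ (hx j)).trans (Nat.mul_div_le _ _)
    omega
  · show g i = 4 * c * R + (if i = i then _ else _) + (if i = i then _ else _)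
    rw [if_pos rfl, if_pos rfl]
    omega
  · show 3 * (m + 1) * e ≤ (if i = i then _ else _)
    rw [if_pos rfl]
    omega
  · show 3 * (m + 1) * a ≤ (if i = i then _ else _)
    rw [if_pos rfl]
    omega
  · have h1 : ∑ j ∈ Finset.Icc 1 m, j * g j =
        i * (4 * c * R) + (∑ j ∈ Finset.Icc 1 m, j * (if j = i then 2 * R * e - Y else i * x j) +
          ∑ j ∈ Finset.Icc 1 m, j * (if j = i then g i - 4 * c * R - (2 * R * e - Y)
            else g j - i * x j)) := by
      rw [← Finset.sum_add_distrib, ← Finset.add_sum_erase _ _ hmem,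
        ← Finset.add_sum_erase (Finset.Icc 1 m) (fun j =>
          j * (if j = i then 2 * R * e - Y else i * x j) +
          j * (if j = i then g i - 4 * c * R - (2 * R * e - Y) else g j - i * x j)) hmem,
        ← add_assoc]
      congr 1
      · rw [if_pos rfl, if_pos rfl, ← mul_add, ← mul_add]
        congr 1
        omega
      · refine Finset.sum_congr rfl (fun j hj => ?_)
        rw [if_neg (Finset.ne_of_mem_erase hj), if_neg (Finset.ne_of_mem_erase hj), ← mul_add]
        congr 1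
        have h1 : i * x j ≤ g j := (Nat.mul_le_mul_left _ (hx j)).trans (Nat.mul_div_le _ _)
        omega
    rw [hsum, s0] at h1
    have hb2 : 2 * i * R ≤ b := by omega
    obtain ⟨b', hb'⟩ : ∃ b', b = 2 * i * R + b' := ⟨b - 2 * i * R, by omega⟩
    have e3 : a * b = i * (4 * c * R) + (e * (2 * i * R) + a * b') := by
      rw [hb', he]; ring
    have e4 : a * (b - 2 * i * R) = a * b' := by rw [hb', Nat.add_sub_cancel_left]
    rw [e4]
    show ∑ j ∈ Finset.Icc 1 m, j * (if j = i then g i - 4 * c * R - (2 * R * e - Y)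
            else g j - i * x j) = a * b'
    omega

theorem gw_split {m i K : ℕ} {g g0 g1 : ℕ → ℕ} (hi : 1 ≤ i) (him : i ≤ m)
    (h : ∀ j ∈ Finset.Icc 1 m, j ≠ i → g j = g0 j + g1 j) (h2 : g i = K + g0 i + g1 i) :
    gw m g = gw m g0 + K • om m i + gw m g1 := by
  classical
  funext k
  show ∑ j ∈ Finset.Ioc (k : ℕ) m, g j = ∑ j ∈ Finset.Ioc (k : ℕ) m, g0 j +
    K * (if (k : ℕ) < i then 1 else 0) + ∑ j ∈ Finset.Ioc (k : ℕ) m, g1 j
  have e : K * (if (k : ℕ) < i then 1 else 0) =
      ∑ j ∈ Finset.Ioc (k : ℕ) m, (if j = i then K else 0) := by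
    rw [Finset.sum_ite_eq' (Finset.Ioc (k : ℕ) m) i (fun _ => K)]
    by_cases hk : (k : ℕ) < i
    · rw [if_pos hk, if_pos (Finset.mem_Ioc.2 ⟨hk, him⟩), mul_one]
    · rw [if_neg hk, if_neg (fun hm => hk (Finset.mem_Ioc.1 hm).1), mul_zero]
  rw [e, ← Finset.sum_add_distrib, ← Finset.sum_add_distrib]
  refine Finset.sum_congr rfl (fun j hj => ?_)
  have hj' : j ∈ Finset.Icc 1 m := by
    rw [Finset.mem_Ioc] at hj
    exact Finset.mem_Icc.2 ⟨by omega, hj.2⟩
  by_cases hji : j = i
  · rw [if_pos hji, hji, h2]; ring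
  · rw [if_neg hji, h j hj' hji, add_zero]

/-- **The core of rows W9 and W13.** -/
theorem gap_core {m i a0 N : ℕ} (hi : 1 ≤ i) (him : i ≤ m)
    (hpos : ∀ (a B : ℕ) (g : ℕ → ℕ), a0 ≤ a → 3 * (m + 1) * a ≤ g i →
      ∑ j ∈ Finset.Icc 1 m, j * g j = a * B → Pos B a m (gw m g))
    (hrich : ∀ c h R s : ℕ, N * (h + 1) ≤ c → R * s ≤ h * h →
      s ^ R ≤ plethMult (2 * i * R) (2 * c) m ((4 * c * R) • om m i))
    {a b c h R s : ℕ} {g : ℕ → ℕ} (hsum : ∑ j ∈ Finset.Icc 1 m, j * g j = a * b)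
    (hc : N * (h + 1) ≤ c) (hh : R * s ≤ h * h) (hpow : (b + 1) ^ (m * a) ≤ s ^ R)
    (ha : a0 + 2 * c + 1 ≤ a) (hR : 4 * (m + 1) ≤ 2 * R)
    (hb : 2 * i * R + 3 * i * (m + 1) + i * m ^ 2 ≤ b)
    (hg : 4 * c * R + 6 * (m + 1) * a + m ≤ g i) :
    plethMult a b m (gw m g) ≤ plethMult b a m (gw m g) := by
  obtain ⟨g0, g1, h1, h2, h3, h4, h5, h6⟩ := gap_split hi him hsum (by omega) hR hb hg
  have hp0 := hpos (a - 2 * c) (2 * i * R) g0 (by omega) h3 h5
  have hp1 := hpos a (b - 2 * i * R) g1 (by omega) h4 h6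
  have r0 := hrich c h R s hc hh
  have r1 := plethMult_pt (c := 2 * c) (lam := (4 * c * R) • om m i) hp0
  have e1 : a - 2 * c + 2 * c = a := by omega
  rw [e1] at r1
  have r2 := plethMult_mul (b := 2 * i * R) (lam := gw m g0 + (4 * c * R) • om m i) hp1
  have e2 : 2 * i * R + (b - 2 * i * R) = b := by omega
  rw [e2, ← gw_split hi him h1 h2] at r2
  exact (plethMult_le_pow a b m _).trans (hpow.trans (r0.trans (r1.trans r2)))

end Vale.Agent.P181.FR
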