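import Vale.Agent.P181.R2.H849.Gap

/-! P181, theorem Y: rows Y3 and Y4 (logarithmic form). -/

set_option autoImplicit false

open scoped TensorProduct

namespace Vale.Agent.P181.FR

open Vale.Agent.P181 Vale.Agent.P181.H280

/-- The splitting of the gaps, general form. -/
theorem gap_splitY {m i a b B c q : ℕ} {v : ℕ → ℕ} (hi : 1 ≤ i) (him : i ≤ m)
    (hB : B = i * q) (hq : 4 * (m + 1) ≤ q)
    (hsum : ∑ j ∈ Finset.Icc 1 m, j * v j + c * B = a * b) (ha : c + 1 ≤ a)
    (hb : B + 3 * i * (m + 1) + i * m ^ 2 ≤ b) (hg : 6 * (m + 1) * a + m ≤ v i) :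
    ∃ g0 g1 : ℕ → ℕ, (∀ j ∈ Finset.Icc 1 m, v j = g0 j + g1 j) ∧
      3 * (m + 1) * (a - c) ≤ g0 i ∧
      3 * (m + 1) * a ≤ g1 i ∧ ∑ j ∈ Finset.Icc 1 m, j * g0 j = (a - c) * B ∧
      ∑ j ∈ Finset.Icc 1 m, j * g1 j = a * (b - B) := by
  classical
  have hmem : i ∈ Finset.Icc 1 m := Finset.mem_Icc.2 ⟨hi, him⟩
  obtain ⟨e, he⟩ : ∃ e, a = c + e := ⟨a - c, by omega⟩
  have he0 : a - c = e := by omega
  rw [he0]
  have he1 : 1 ≤ e := by omega
  -- the capacity
  have hcap : q * e + 3 * (m + 1) * a ≤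
      v i + ∑ j ∈ (Finset.Icc 1 m).erase i, j * (v j / i) := by
    have h1 : i * v i + ∑ j ∈ (Finset.Icc 1 m).erase i, j * v j + c * B = a * b := by
      rw [← hsum, ← Finset.add_sum_erase _ _ hmem]
    have h2 : ∑ j ∈ (Finset.Icc 1 m).erase i, j * v j ≤
        i * ∑ j ∈ (Finset.Icc 1 m).erase i, j * (v j / i) + i * m ^ 2 := by
      have h3 : ∀ j ∈ (Finset.Icc 1 m).erase i, j * v j ≤ i * (j * (v j / i)) + i * m := by
        intro j hj
        have hj2 := (Finset.mem_Icc.1 (Finset.mem_of_mem_erase hj)).2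
        have h4 := Nat.div_add_mod (v j) i
        have h5 := Nat.mod_lt (v j) hi
        calc j * v j = j * (i * (v j / i) + v j % i) := by rw [h4]
          _ = i * (j * (v j / i)) + j * (v j % i) := by ring
          _ ≤ i * (j * (v j / i)) + m * i := Nat.add_le_add_left (Nat.mul_le_mul hj2 h5.le) _
          _ = _ := by ring
      calc ∑ j ∈ (Finset.Icc 1 m).erase i, j * v j
          ≤ ∑ j ∈ (Finset.Icc 1 m).erase i, (i * (j * (v j / i)) + i * m) :=
            Finset.sum_le_sum h3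
        _ = i * ∑ j ∈ (Finset.Icc 1 m).erase i, j * (v j / i) +
            ((Finset.Icc 1 m).erase i).card * (i * m) := by
            rw [Finset.sum_add_distrib, Finset.mul_sum, Finset.sum_const, smul_eq_mul]
        _ ≤ i * ∑ j ∈ (Finset.Icc 1 m).erase i, j * (v j / i) + m * (i * m) := by
            have : ((Finset.Icc 1 m).erase i).card ≤ m := by
              refine (Finset.card_le_card (Finset.erase_subset _ _)).trans ?_
              rw [Nat.card_Icc]; omega
            exact Nat.add_le_add_left (Nat.mul_le_mul_right _ this) _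
        _ = _ := by ring
    have h3 : a * (B + 3 * i * (m + 1) + i * m ^ 2) ≤ a * b := Nat.mul_le_mul_left _ hb
    have h4 : i * m ^ 2 ≤ a * (i * m ^ 2) := Nat.le_mul_of_pos_left _ (by omega)
    have h5 : i * (q * e + 3 * (m + 1) * a) ≤
        i * (v i + ∑ j ∈ (Finset.Icc 1 m).erase i, j * (v j / i)) := by
      have e1 : a * (B + 3 * i * (m + 1) + i * m ^ 2) =
          i * (q * e + 3 * (m + 1) * a) + c * B + a * (i * m ^ 2) := by
        have : a * B = i * (q * e) + c * B := by rw [he, hB]; ring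
        calc a * (B + 3 * i * (m + 1) + i * m ^ 2)
            = a * B + a * (3 * i * (m + 1) + i * m ^ 2) := by ring
          _ = _ := by rw [this]; ring
      have e2 : i * (v i + ∑ j ∈ (Finset.Icc 1 m).erase i, j * (v j / i)) =
          i * v i + i * ∑ j ∈ (Finset.Icc 1 m).erase i, j * (v j / i) := by ring
      rw [e2]
      omega
    exact Nat.le_of_mul_le_mul_left h5 hi
  obtain ⟨x, hx, hx1, hx2⟩ := greedy m (fun j => j) (fun j => v j / i)
    ((Finset.Icc 1 m).erase i)
    (fun j hj => (Finset.mem_Icc.1 (Finset.mem_of_mem_erase hj)).1)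
    (fun j hj => (Finset.mem_Icc.1 (Finset.mem_of_mem_erase hj)).2)
    (q * e + 3 * (m + 1) * a - v i) (by
      show q * e + 3 * (m + 1) * a - v i ≤
        ∑ j ∈ (Finset.Icc 1 m).erase i, j * (v j / i)
      omega)
  obtain ⟨Y, hY⟩ : ∃ Y, Y = ∑ j ∈ (Finset.Icc 1 m).erase i, j * x j := ⟨_, rfl⟩
  have hx1' : q * e + 3 * (m + 1) * a - v i ≤ Y := by rw [hY]; exact hx1
  have hx2' : Y ≤ q * e + 3 * (m + 1) * a - v i + m := by rw [hY]; exact hx2
  -- room for `g0 i`
  have hroom : Y + 3 * (m + 1) * e ≤ q * e := by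
    by_cases hT : q * e + 3 * (m + 1) * a ≤ v i
    · have h1 : Y ≤ m := by omega
      have h2 : 4 * (m + 1) * e ≤ q * e := Nat.mul_le_mul_right _ hq
      have h3 : 4 * (m + 1) * e = 3 * (m + 1) * e + (m + 1) * e := by ring
      have h4 : (m + 1) * 1 ≤ (m + 1) * e := Nat.mul_le_mul_left _ he1
      omega
    · have h1 : Y + v i ≤ q * e + 3 * (m + 1) * a + m := by omega
      have h3 : 3 * (m + 1) * e ≤ 3 * (m + 1) * a := Nat.mul_le_mul_left _ (by omega)
      have h4 : 6 * (m + 1) * a = 3 * (m + 1) * a + 3 * (m + 1) * a := by ring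
      omega
  have hg1 : q * e - Y + 3 * (m + 1) * a ≤ v i := by omega
  have s0 : ∑ j ∈ Finset.Icc 1 m, j * (if j = i then q * e - Y else i * x j) =
      e * B := by
    rw [← Finset.add_sum_erase _ _ hmem, if_pos rfl]
    have e1 : ∑ j ∈ (Finset.Icc 1 m).erase i, j * (if j = i then q * e - Y else i * x j) =
        i * Y := by
      rw [hY, Finset.mul_sum]
      refine Finset.sum_congr rfl (fun j hj => ?_)
      rw [if_neg (Finset.ne_of_mem_erase hj)]
      ring
    rw [e1, ← mul_add, Nat.sub_add_cancel (by omega), hB]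
    ring
  refine ⟨fun j => if j = i then q * e - Y else i * x j,
    fun j => if j = i then v i - (q * e - Y) else v j - i * x j,
    ?_, ?_, ?_, s0, ?_⟩
  · intro j _
    show v j = (if j = i then _ else i * x j) + (if j = i then _ else v j - i * x j)
    by_cases hj : j = i
    · rw [if_pos hj, if_pos hj, hj]
      omega
    · rw [if_neg hj, if_neg hj]
      have h1 : i * x j ≤ v j := (Nat.mul_le_mul_left _ (hx j)).trans (Nat.mul_div_le _ _)
      omega
  · show 3 * (m + 1) * e ≤ (if i = i then _ else _)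
    rw [if_pos rfl]
    omega
  · show 3 * (m + 1) * a ≤ (if i = i then _ else _)
    rw [if_pos rfl]
    omega
  · have h1 : ∑ j ∈ Finset.Icc 1 m, j * v j =
        (∑ j ∈ Finset.Icc 1 m, j * (if j = i then q * e - Y else i * x j) +
          ∑ j ∈ Finset.Icc 1 m, j * (if j = i then v i - (q * e - Y) else v j - i * x j)) := by
      rw [← Finset.sum_add_distrib]
      refine Finset.sum_congr rfl (fun j _ => ?_)
      rw [← mul_add]
      congr 1
      by_cases hj : j = i
      · rw [if_pos hj, if_pos hj, hj]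
        omega
      · rw [if_neg hj, if_neg hj]
        have h1 : i * x j ≤ v j := (Nat.mul_le_mul_left _ (hx j)).trans (Nat.mul_div_le _ _)
        omega
    rw [s0] at h1
    obtain ⟨b', hb'⟩ : ∃ b', b = B + b' := ⟨b - B, by omega⟩
    have e3 : a * b = e * B + a * b' + c * B := by
      rw [hb', he]; ring
    have e4 : a * (b - B) = a * b' := by rw [hb', Nat.add_sub_cancel_left]
    rw [e4]
    show ∑ j ∈ Finset.Icc 1 m, j * (if j = i then v i - (q * e - Y) else v j - i * x j) = a * b'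
    omega

theorem gw_add3 {m : ℕ} {g u g0 g1 : ℕ → ℕ}
    (h : ∀ j ∈ Finset.Icc 1 m, g j = g0 j + u j + g1 j) :
    gw m g = gw m g0 + gw m u + gw m g1 := by
  classical
  funext k
  show ∑ j ∈ Finset.Ioc (k : ℕ) m, g j = ∑ j ∈ Finset.Ioc (k : ℕ) m, g0 j +
    ∑ j ∈ Finset.Ioc (k : ℕ) m, u j + ∑ j ∈ Finset.Ioc (k : ℕ) m, g1 j
  rw [← Finset.sum_add_distrib, ← Finset.sum_add_distrib]
  refine Finset.sum_congr rfl (fun j hj => h j ?_)
  rw [Finset.mem_Ioc] at hj
  exact Finset.mem_Icc.2 ⟨by omega, hj.2⟩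

/-- **Row Y3** (with `K ≤ B`) from W5. -/
theorem gap_coreY {m i : ℕ} (hi : 1 ≤ i) (him : i ≤ m) (w5 : W5I m i) :
    ∃ K : ℕ, 0 < K ∧ ∀ (a b B c S : ℕ) (u g : ℕ → ℕ),
    i ∣ B → K ≤ B → K + c ≤ a → B + K ≤ b → (∀ j, u j ≤ g j) →
    ∑ j ∈ Finset.Icc 1 m, j * u j = c * B → ∑ j ∈ Finset.Icc 1 m, j * g j = a * b →
    u i + K * a ≤ g i → S ≤ plethMult B c m (gw m u) → S ≤ plethMult b a m (gw m g) := by
  obtain ⟨a0, hpos⟩ := w5
  obtain ⟨K, hK⟩ : ∃ K, K = a0 + 7 * i * (m + 1) + i * m ^ 2 + 7 * (m + 1) := ⟨_, rfl⟩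
  refine ⟨K, by omega, ?_⟩
  intro a b B c S u g hiB hKB hKa hBb hug husum hsum hgi hS
  obtain ⟨q, hq⟩ := hiB
  have hq4 : 4 * (m + 1) ≤ q := by
    have h1 : i * (4 * (m + 1)) ≤ i * q := by
      have e : i * (4 * (m + 1)) ≤ 7 * i * (m + 1) := by
        calc i * (4 * (m + 1)) = 4 * (i * (m + 1)) := by ring
          _ ≤ 7 * (i * (m + 1)) := Nat.mul_le_mul_right _ (by norm_num)
          _ = _ := by ring
      omega
    exact Nat.le_of_mul_le_mul_left h1 hi
  have hvsum : ∑ j ∈ Finset.Icc 1 m, j * (g j - u j) + c * B = a * b := by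
    rw [← husum, ← hsum, ← Finset.sum_add_distrib]
    refine Finset.sum_congr rfl (fun j _ => ?_)
    rw [← mul_add, Nat.sub_add_cancel (hug j)]
  have ha1 : 1 ≤ a := by omega
  obtain ⟨g0, g1, h1, h2, h3, h4, h5⟩ := gap_splitY (v := fun j => g j - u j) hi him hq hq4 hvsum
    (by omega) (by
      have e : 3 * i * (m + 1) ≤ 7 * i * (m + 1) :=
        Nat.mul_le_mul_right _ (Nat.mul_le_mul_right _ (by norm_num))
      omega) (by
      show 6 * (m + 1) * a + m ≤ g i - u i
      have e1 : (7 * (m + 1)) * a ≤ K * a := Nat.mul_le_mul_right _ (by omega)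
      have e2 : (7 * (m + 1)) * a = 6 * (m + 1) * a + (m + 1) * a := by ring
      have e3 : (m + 1) * 1 ≤ (m + 1) * a := Nat.mul_le_mul_left _ ha1
      omega)
  have hp0 := hpos (a - c) B g0 (by omega) h2 h4
  have hp1 := hpos a (b - B) g1 (by omega) h3 h5
  have r1 := plethMult_pt (c := c) (lam := gw m u) hp0
  have e1 : a - c + c = a := by omega
  rw [e1] at r1
  have r2 := plethMult_mul (b := B) (lam := gw m g0 + gw m u) hp1
  have e2 : B + (b - B) = b := by omega
  rw [e2, ← gw_add3 (g := g) (u := u) (fun j hj => by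
    have h6 := h1 j hj
    have h7 := hug j
    have h8 : g j - u j = g0 j + g1 j := h6
    omega)] at r2
  exact hS.trans (r1.trans r2)

/-- The conclusion of row Y2 for one pair `(m, i)`. -/
def Y2I (m i : ℕ) : Prop := ∃ N : ℕ, 0 < N ∧ ∀ h1 h2 R s : ℕ,
    R * s ≤ h1 * h2 →
    s ^ R ≤ plethMult (2 * i * R) (2 * N * (h1 + 1) + 2 * N * (h2 + 1)) m
      ((2 * i * N * (h1 + 1) * R) • om m 2 + (4 * N * (h2 + 1) * R) • om m i)

theorem gw_two {m i x y : ℕ} (h2 : 2 ≤ m) (hi : 3 ≤ i) (him : i ≤ m) :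
    gw m (fun j => if j = 2 then x else if j = i then y else 0) = x • om m 2 + y • om m i := by
  classical
  funext k
  show ∑ j ∈ Finset.Ioc (k : ℕ) m, (if j = 2 then x else if j = i then y else 0) =
    x * (if (k : ℕ) < 2 then 1 else 0) + y * (if (k : ℕ) < i then 1 else 0)
  have e : ∀ j ∈ Finset.Ioc (k : ℕ) m, (if j = 2 then x else if j = i then y else 0) =
      (if j = 2 then x else 0) + (if j = i then y else 0) := by
    intro j _
    by_cases h : j = 2
    · rw [if_pos h, if_pos h, if_neg (by omega), add_zero]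
    · rw [if_neg h, if_neg h, zero_add]
  rw [Finset.sum_congr rfl e, Finset.sum_add_distrib,
    Finset.sum_ite_eq' (Finset.Ioc (k : ℕ) m) 2 (fun _ => x),
    Finset.sum_ite_eq' (Finset.Ioc (k : ℕ) m) i (fun _ => y)]
  congr 1
  · by_cases hk : (k : ℕ) < 2
    · rw [if_pos hk, if_pos (Finset.mem_Ioc.2 ⟨hk, h2⟩), mul_one]
    · rw [if_neg hk, if_neg (fun hm => hk (Finset.mem_Ioc.1 hm).1), mul_zero]
  · by_cases hk : (k : ℕ) < i
    · rw [if_pos hk, if_pos (Finset.mem_Ioc.2 ⟨hk, him⟩), mul_one]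
    · rw [if_neg hk, if_neg (fun hm => hk (Finset.mem_Ioc.1 hm).1), mul_zero]

theorem sum_two {m i x y : ℕ} (h2 : 2 ≤ m) (hi : 3 ≤ i) (him : i ≤ m) :
    ∑ j ∈ Finset.Icc 1 m, j * (if j = 2 then x else if j = i then y else 0) =
      2 * x + i * y := by
  classical
  have e : ∀ j ∈ Finset.Icc 1 m, j * (if j = 2 then x else if j = i then y else 0) =
      (if j = 2 then 2 * x else 0) + (if j = i then i * y else 0) := by
    intro j _
    by_cases h : j = 2
    · rw [if_pos h, if_pos h, if_neg (by omega), add_zero, h]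
    · rw [if_neg h, if_neg h, zero_add]
      by_cases h' : j = i
      · rw [if_pos h', if_pos h', h']
      · rw [if_neg h', if_neg h', mul_zero]
  rw [Finset.sum_congr rfl e, Finset.sum_add_distrib,
    Finset.sum_ite_eq' (Finset.Icc 1 m) 2 (fun _ => 2 * x),
    Finset.sum_ite_eq' (Finset.Icc 1 m) i (fun _ => i * y),
    if_pos (Finset.mem_Icc.2 ⟨by omega, h2⟩), if_pos (Finset.mem_Icc.2 ⟨by omega, him⟩)]

end Vale.Agent.P181.FR
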