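import Mathlib

/-! P181.FewRows, row T3': the numbers for `b ≥ a + K₁ a / log a`. -/

set_option autoImplicit false

namespace Vale.Agent.P181.FR

namespace H849

/-- the sides of the boxes of monomials -/
lemma sides {n a b K : ℕ} {ρ : ℝ} (hρ0 : 0 < ρ) (hab : a ≤ b) (ha : 1 ≤ a) (hbK : b ≤ K * a)
    (h1 : 2 ≤ ρ * a) (h2 : (K : ℝ) + 1 ≤ a * (ρ / 2) ^ (n + 2)) :
    ∃ h s : ℕ, (h : ℝ) ≤ ρ * a ∧ s * b ≤ h ^ (n + 2) ∧
      (ρ / 2) ^ (n + 2) / (2 * (K + 1)) * (a : ℝ) ^ (n + 1) ≤ s := by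
  have hx1 : (1 : ℝ) ≤ a := by exact_mod_cast ha
  have hx0 : (0 : ℝ) < a := by linarith
  have hbx : (b : ℝ) ≤ K * a := by exact_mod_cast hbK
  have hb0 : 0 < b := by omega
  have hh1 : (⌊ρ * (a : ℝ)⌋₊ : ℝ) ≤ ρ * a := Nat.floor_le (by positivity)
  have hh2 : ρ / 2 * a ≤ (⌊ρ * (a : ℝ)⌋₊ : ℝ) := by
    have := Nat.lt_floor_add_one (ρ * (a : ℝ))
    linarith
  generalize ⌊ρ * (a : ℝ)⌋₊ = h at hh1 hh2
  have hhpow : (ρ / 2) ^ (n + 2) * (a : ℝ) ^ (n + 2) ≤ (h : ℝ) ^ (n + 2) := by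
    rw [← mul_pow]
    exact pow_le_pow_left₀ (by positivity) hh2 _
  have hbh : b ≤ h ^ (n + 2) := by
    have h4 : (a : ℝ) ≤ (a : ℝ) ^ (n + 1) := le_self_pow₀ hx1 (by omega)
    have h3 : (b : ℝ) ≤ (h : ℝ) ^ (n + 2) := by
      calc (b : ℝ) ≤ (K + 1) * a := by linarith
        _ ≤ a * (ρ / 2) ^ (n + 2) * a := mul_le_mul_of_nonneg_right h2 hx0.le
        _ ≤ (a : ℝ) ^ (n + 1) * (ρ / 2) ^ (n + 2) * a :=
            mul_le_mul_of_nonneg_right (mul_le_mul_of_nonneg_right h4 (by positivity)) hx0.le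
        _ = (ρ / 2) ^ (n + 2) * (a : ℝ) ^ (n + 2) := by rw [pow_succ (a : ℝ) (n + 1)]; ring
        _ ≤ _ := hhpow
    exact_mod_cast h3
  have hs1 : 1 ≤ h ^ (n + 2) / b := (Nat.one_le_div_iff hb0).2 hbh
  have hs3 : h ^ (n + 2) < b * (h ^ (n + 2) / b + 1) := Nat.lt_mul_div_succ _ hb0
  have hs4 : h ^ (n + 2) / b * b ≤ h ^ (n + 2) := Nat.div_mul_le_self _ _
  generalize h ^ (n + 2) / b = s at hs1 hs3 hs4
  refine ⟨h, s, hh1, hs4, ?_⟩
  have hs2 : (h : ℝ) ^ (n + 2) ≤ 2 * b * s := by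
    have h2 : h ^ (n + 2) ≤ 2 * b * s := by nlinarith
    exact_mod_cast h2
  have h5 : (ρ / 2) ^ (n + 2) * (a : ℝ) ^ (n + 2) ≤ 2 * ((K + 1) * a) * s := by
    refine (hhpow.trans hs2).trans ?_
    refine mul_le_mul_of_nonneg_right ?_ (Nat.cast_nonneg _)
    linarith
  have hK : (0 : ℝ) < 2 * (K + 1) := by positivity
  rw [div_mul_eq_mul_div, div_le_iff₀ hK]
  refine le_of_mul_le_mul_right (le_trans (le_of_eq ?_) (h5.trans (le_of_eq ?_))) hx0
  · rw [pow_succ (a : ℝ) (n + 1)]; ring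
  · ring

/-- the bound for the source -/
lemma source {n a b K L : ℕ} (ha : 1 ≤ a) (hbK : b ≤ K * a)
    (hL : a.factorial * L ≤ ((b + 1) ^ (n + 2) + a) ^ a) :
    (L : ℝ) ≤ (Real.exp 1 * ((2 * (K + 1)) ^ (n + 2) + 1) * (a : ℝ) ^ (n + 1)) ^ a := by
  have hx1 : (1 : ℝ) ≤ a := by exact_mod_cast ha
  have hx0 : (0 : ℝ) < a := by linarith
  have hbx : (b : ℝ) ≤ K * a := by exact_mod_cast hbK
  have h1 : (a.factorial : ℝ) * L ≤ (((b : ℝ) + 1) ^ (n + 2) + a) ^ a := by exact_mod_cast hL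
  have h2 : ((b : ℝ) + 1) ^ (n + 2) + a ≤ ((2 * (K + 1)) ^ (n + 2) + 1) * (a : ℝ) ^ (n + 1) * a := by
    have hKa : (0 : ℝ) ≤ K * a := by positivity
    have h3 : ((b : ℝ) + 1) ≤ 2 * (K + 1) * a := by nlinarith
    have h4 : ((b : ℝ) + 1) ^ (n + 2) ≤ (2 * (K + 1) * a) ^ (n + 2) :=
      pow_le_pow_left₀ (by positivity) h3 _
    have h5 : (a : ℝ) ≤ (a : ℝ) ^ (n + 1) * a := by
      have : 1 ≤ (a : ℝ) ^ (n + 1) := one_le_pow₀ hx1
      nlinarith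
    have h6 : (2 * ((K : ℝ) + 1) * a) ^ (n + 2) =
        (2 * (K + 1)) ^ (n + 2) * (a : ℝ) ^ (n + 1) * a := by
      rw [mul_pow, pow_succ (a : ℝ) (n + 1)]
      ring
    rw [h6] at h4
    linarith
  have h3 : (a : ℝ) ^ a / (a.factorial : ℝ) ≤ Real.exp a := Real.pow_div_factorial_le_exp _ hx0.le a
  have hfac : (0 : ℝ) < a.factorial := by exact_mod_cast Nat.factorial_pos a
  have h4 : (L : ℝ) ≤ (((b : ℝ) + 1) ^ (n + 2) + a) ^ a / a.factorial := by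
    rw [le_div_iff₀ hfac]
    linarith
  refine h4.trans ?_
  calc (((b : ℝ) + 1) ^ (n + 2) + a) ^ a / a.factorial
      ≤ (((2 * (K + 1)) ^ (n + 2) + 1) * (a : ℝ) ^ (n + 1) * a) ^ a / a.factorial := by
        refine div_le_div_of_nonneg_right ?_ hfac.le
        exact pow_le_pow_left₀ (by positivity) h2 _
    _ = (((2 * (K + 1)) ^ (n + 2) + 1) * (a : ℝ) ^ (n + 1)) ^ a * ((a : ℝ) ^ a / a.factorial) := by
        rw [mul_pow]; ring
    _ ≤ (((2 * (K + 1)) ^ (n + 2) + 1) * (a : ℝ) ^ (n + 1)) ^ a * Real.exp a :=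
        mul_le_mul_of_nonneg_left h3 (by positivity)
    _ = _ := by
        have : Real.exp a = Real.exp 1 ^ a := by
          rw [← Real.exp_nat_mul, mul_one]
        rw [this, ← mul_pow]
        congr 1
        ring

/-- the comparison -/
lemma compare {n a b K E : ℕ} {κ Λ K1 : ℝ} (hκ0 : 0 < κ) (hΛ0 : 0 < Λ)
    (hK1 : K1 = |Real.log Λ| + (K + 1) * |Real.log κ| + E * |Real.log (K + 1)| + 2 * E + 1)
    (ha3 : 3 ≤ a) (hab : (a : ℝ) + K1 * a / Real.log a ≤ b) (hbK : b ≤ K * a) :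
    (Λ * (a : ℝ) ^ (n + 1)) ^ a * ((K + 1) * (a : ℝ) ^ 2) ^ E ≤ (κ * (a : ℝ) ^ (n + 1)) ^ b := by
  have hx3 : (3 : ℝ) ≤ a := by exact_mod_cast ha3
  have hbx : (b : ℝ) ≤ K * a := by exact_mod_cast hbK
  have hbr : (0 : ℝ) ≤ b := Nat.cast_nonneg _
  have hK1p : 0 ≤ K1 := by rw [hK1]; positivity
  have hEr : (0 : ℝ) ≤ E := Nat.cast_nonneg _
  have hnr : (0 : ℝ) ≤ n := Nat.cast_nonneg _
  have hp1 : 0 < (Λ * (a : ℝ) ^ (n + 1)) ^ a * ((K + 1) * (a : ℝ) ^ 2) ^ E := by positivity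
  have hp2 : 0 < (κ * (a : ℝ) ^ (n + 1)) ^ b := by positivity
  rw [← Real.log_le_log_iff hp1 hp2]
  rw [Real.log_mul (by positivity) (by positivity), Real.log_pow, Real.log_pow, Real.log_pow,
    Real.log_mul (by positivity) (by positivity), Real.log_mul (by positivity) (by positivity),
    Real.log_mul (by positivity) (by positivity), Real.log_pow, Real.log_pow]
  push_cast
  generalize (a : ℝ) = x at hx3 hbx hab ⊢
  generalize (b : ℝ) = y at hbx hbr hab ⊢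
  have hx0 : 0 < x := by linarith
  have hlog1 : 1 ≤ Real.log x := by
    rw [Real.le_log_iff_exp_le hx0]
    exact (Real.exp_one_lt_d9.le.trans (by norm_num)).trans hx3
  have hlogx : Real.log x ≤ x := (Real.log_le_sub_one_of_pos hx0).trans (by linarith)
  have hxy : x ≤ y := by
    have : 0 ≤ K1 * x / Real.log x := by positivity
    linarith
  have e1 : Real.log Λ ≤ |Real.log Λ| := le_abs_self _
  have e2 : -|Real.log κ| ≤ Real.log κ := neg_abs_le _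
  have e3 : Real.log ((K : ℝ) + 1) ≤ |Real.log ((K : ℝ) + 1)| := le_abs_self _
  have hgap : K1 * x ≤ (y - x) * Real.log x := by
    have h1 : K1 * x / Real.log x ≤ y - x := by linarith
    rwa [div_le_iff₀ (by linarith)] at h1
  have hgap2 : K1 * x ≤ (y - x) * ((n + 1) * Real.log x) := by
    have h1 : Real.log x ≤ (n + 1) * Real.log x := by nlinarith
    exact hgap.trans (mul_le_mul_of_nonneg_left h1 (by linarith))
  have f1 : x * Real.log Λ ≤ x * |Real.log Λ| := mul_le_mul_of_nonneg_left e1 hx0.le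
  have f2 : -((K + 1) * x * |Real.log κ|) ≤ y * Real.log κ := by
    have h1 : y * (-|Real.log κ|) ≤ y * Real.log κ := mul_le_mul_of_nonneg_left e2 hbr
    have h2 : y * |Real.log κ| ≤ (K + 1) * x * |Real.log κ| :=
      mul_le_mul_of_nonneg_right (by linarith) (abs_nonneg _)
    linarith
  have f3 : (E : ℝ) * Real.log ((K : ℝ) + 1) ≤ x * (E * |Real.log ((K : ℝ) + 1)|) := by
    have h1 : (E : ℝ) * Real.log ((K : ℝ) + 1) ≤ E * |Real.log ((K : ℝ) + 1)| :=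
      mul_le_mul_of_nonneg_left e3 hEr
    have h2 : (0 : ℝ) ≤ E * |Real.log ((K : ℝ) + 1)| := by positivity
    have h3 : 1 * (E * |Real.log ((K : ℝ) + 1)|) ≤ x * (E * |Real.log ((K : ℝ) + 1)|) :=
      mul_le_mul_of_nonneg_right (by linarith) h2
    linarith
  have f4 : (E : ℝ) * (2 * Real.log x) ≤ x * (2 * E) := by
    have h3 : (E : ℝ) * (2 * Real.log x) ≤ E * (2 * x) :=
      mul_le_mul_of_nonneg_left (by linarith) hEr
    linarith
  have f5 : K1 * x = x * |Real.log Λ| + (K + 1) * x * |Real.log κ| +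
      x * (E * |Real.log ((K : ℝ) + 1)|) + x * (2 * E) + x := by
    rw [hK1]; ring
  have g1 : x * (Real.log Λ + (n + 1) * Real.log x) + E * (Real.log (K + 1) + 2 * Real.log x) =
      x * Real.log Λ + x * ((n + 1) * Real.log x) + E * Real.log (K + 1) +
        E * (2 * Real.log x) := by ring
  have g2 : y * (Real.log κ + (n + 1) * Real.log x) =
      y * Real.log κ + (y - x) * ((n + 1) * Real.log x) + x * ((n + 1) * Real.log x) := by ring
  rw [g1, g2]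
  linarith

end H849

/-- **Row T3'.** -/
theorem numer4 (n : ℕ) {θ : ℝ} (hθ : 0 < θ) (hθ1 : θ < 1) (K : ℕ) :
    ∃ K1 : ℝ, 0 < K1 ∧ ∃ A : ℕ, 3 ≤ A ∧ ∀ a b : ℕ, A ≤ a → (a : ℝ) + K1 * a / Real.log a ≤ b →
      b ≤ K * a → ∃ c h s : ℕ, (c : ℝ) ≤ θ * a ∧ c + (n + 3) ≤ a ∧ (n + 2) * h ≤ c ∧
        s * b ≤ h ^ (n + 2) ∧ ∀ L : ℕ, a.factorial * L ≤ ((b + 1) ^ (n + 2) + a) ^ a →
          L * (b * c + 1) ^ ((n + 3) * (n + 3) + (n + 3)) ≤ s ^ b := by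
  obtain ⟨E, hE⟩ : ∃ E : ℕ, E = (n + 3) * (n + 3) + (n + 3) := ⟨_, rfl⟩
  obtain ⟨ρ, hρ⟩ : ∃ ρ : ℝ, ρ = θ / (2 * (n + 2)) := ⟨_, rfl⟩
  have hρ0 : 0 < ρ := by rw [hρ]; positivity
  obtain ⟨K1, hK1⟩ : ∃ K1 : ℝ, K1 = |Real.log (Real.exp 1 * ((2 * (K + 1)) ^ (n + 2) + 1))| +
    (K + 1) * |Real.log ((ρ / 2) ^ (n + 2) / (2 * (K + 1)))| + E * |Real.log (K + 1)| +
    2 * E + 1 := ⟨_, rfl⟩
  have hK10 : 0 < K1 := by rw [hK1]; positivity
  rw [← hE]
  refine ⟨K1, hK10, ⌈2 / ρ⌉₊ + ⌈(K + 1) / (ρ / 2) ^ (n + 2)⌉₊ + 2 * (n + 3) + 3, by omega, ?_⟩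
  intro a b hA hab hbK
  have ha3 : 3 ≤ a := by omega
  have hx3 : (3 : ℝ) ≤ a := by exact_mod_cast ha3
  have hx0 : (0 : ℝ) < a := by linarith
  have hlog0 : 0 ≤ Real.log a := Real.log_nonneg (by linarith)
  have hA1 : 2 / ρ ≤ a := (Nat.le_ceil _).trans (by
    have : ⌈2 / ρ⌉₊ ≤ a := by omega
    exact_mod_cast this)
  have hA2 : (K + 1) / (ρ / 2) ^ (n + 2) ≤ a := (Nat.le_ceil _).trans (by
    have : ⌈((K : ℝ) + 1) / (ρ / 2) ^ (n + 2)⌉₊ ≤ a := by omega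
    exact_mod_cast this)
  have hA3 : (2 * (n + 3) : ℝ) ≤ a := by
    have : 2 * (n + 3) ≤ a := by omega
    exact_mod_cast this
  have hab' : (a : ℝ) ≤ b := by
    have : 0 ≤ K1 * a / Real.log a := by positivity
    linarith
  rw [div_le_iff₀ hρ0] at hA1
  rw [div_le_iff₀ (by positivity)] at hA2
  obtain ⟨h, s, hh, hsb, hs⟩ := H849.sides (n := n) hρ0 (by exact_mod_cast hab') (by omega) hbK
    (by linarith) hA2
  have hq : ((n : ℝ) + 2) * h ≤ θ / 2 * a := by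
    have h1 : ((n : ℝ) + 2) * h ≤ (n + 2) * (ρ * a) := mul_le_mul_of_nonneg_left hh (by positivity)
    have h2 : ((n : ℝ) + 2) * (ρ * a) = θ / 2 * a := by
      rw [hρ]
      field_simp
    linarith
  have hθa : θ * a ≤ a := by nlinarith
  have hθa0 : 0 ≤ θ * a := by positivity
  refine ⟨(n + 2) * h, h, s, ?_, ?_, le_rfl, hsb, ?_⟩
  · push_cast
    linarith
  · have h3 : (((n + 2) * h + (n + 3) : ℕ) : ℝ) ≤ a := by
      push_cast
      linarith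
    exact_mod_cast h3
  · intro L hL
    have hL1 := H849.source (n := n) (by omega) hbK hL
    have hB : ((b * ((n + 2) * h) + 1 : ℕ) : ℝ) ≤ (K + 1) * (a : ℝ) ^ 2 := by
      push_cast
      have hbx : (b : ℝ) ≤ K * a := by exact_mod_cast hbK
      have h1 : (b : ℝ) * ((n + 2) * h) ≤ (K * a) * a :=
        mul_le_mul hbx (by linarith) (by positivity) (by positivity)
      nlinarith
    have hmain := H849.compare (n := n) (E := E)
      (κ := (ρ / 2) ^ (n + 2) / (2 * (K + 1))) (by positivity)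
      (Λ := Real.exp 1 * ((2 * (K + 1)) ^ (n + 2) + 1)) (by positivity) hK1 ha3 hab hbK
    have hfin : ((L * (b * ((n + 2) * h) + 1) ^ E : ℕ) : ℝ) ≤ ((s ^ b : ℕ) : ℝ) := by
      rw [Nat.cast_mul, Nat.cast_pow, Nat.cast_pow]
      refine le_trans (mul_le_mul hL1 (pow_le_pow_left₀ (Nat.cast_nonneg _) hB _) (by positivity)
        (by positivity)) (hmain.trans ?_)
      exact pow_le_pow_left₀ (by positivity) hs _
    exact_mod_cast hfin

end Vale.Agent.P181.FR
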