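import Vale.Agent.P181.R2.H207.Delta2
import Vale.Agent.P181.R2.H539.Fac
import Vale.Agent.P181.R2.H539.CountGap
import Vale.Agent.P181.R2.H849.Num4

/-! P181.FewRows, rows T5' and T7': `b ≥ a + K a / log a`. -/

set_option autoImplicit false

open scoped TensorProduct

namespace Vale.Agent.P181.FR

open Vale.Agent.P181 Vale.Agent.P181.H280

/-- the power `7/4` -/
lemma H849.pow_small {C θ x : ℝ} (hC : 0 < C) (hθ : 0 < θ) (hx : (2 * C / θ) ^ 4 ≤ x) :
    C * x ^ ((3 : ℝ) / 2 + 1 / 4) ≤ θ / 2 * (x * x) := by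
  have hx0 : 0 < x := lt_of_lt_of_le (by positivity) hx
  obtain ⟨y, hy⟩ : ∃ y : ℝ, y = x ^ ((1 : ℝ) / 4) := ⟨_, rfl⟩
  have hy0 : 0 < y := by rw [hy]; exact Real.rpow_pos_of_pos hx0 _
  have hy4 : y ^ 4 = x := by
    rw [hy, ← Real.rpow_natCast, ← Real.rpow_mul hx0.le]
    norm_num
  have hy7 : x ^ ((3 : ℝ) / 2 + 1 / 4) = y ^ 7 := by
    rw [hy, ← Real.rpow_natCast (x ^ ((1 : ℝ) / 4)) 7, ← Real.rpow_mul hx0.le]
    norm_num
  have hyC : 2 * C / θ ≤ y := by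
    rw [← hy4] at hx
    exact le_of_pow_le_pow_left₀ (by norm_num) hy0.le hx
  rw [div_le_iff₀ hθ] at hyC
  rw [hy7]
  have e : θ / 2 * (x * x) = (θ / 2 * y) * y ^ 7 := by
    rw [← hy4]; ring
  rw [e]
  exact mul_le_mul_of_nonneg_right (by linarith) (by positivity)

/-- **Foulkes' inequality for all `b ≥ a + K a / log a` and all partitions with `n + 3` rows whose
gaps are at least `θ a b`.** -/
theorem final_log (n : ℕ) {θ : ℝ} (hθ : 0 < θ) :
    ∃ K : ℝ, 0 < K ∧ ∀ (a b : ℕ) (lam : Fin (n + 3) → ℕ),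
      (a : ℝ) + K * a / Real.log a ≤ b → ∑ i, lam i = a * b →
      (∀ i : Fin (n + 2), (lam i.succ : ℝ) + θ * (a * b) ≤ lam i.castSucc) →
      θ * (a * b) ≤ lam (Fin.last _) →
      plethMult a b (n + 3) lam ≤ plethMult b a (n + 3) lam := by
  obtain ⟨C2, hC2, hF⟩ := final_lin n (ε := 1 / 4) (by norm_num)
  obtain ⟨θ2, hθ2⟩ : ∃ θ2 : ℝ, θ2 = min θ (1 / 2) := ⟨_, rfl⟩
  have h20 : 0 < θ2 := by rw [hθ2]; exact lt_min hθ (by norm_num)
  have h2θ : θ2 ≤ θ := by rw [hθ2]; exact min_le_left _ _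
  have h2h : θ2 ≤ 1 / 2 := by rw [hθ2]; exact min_le_right _ _
  obtain ⟨K1, hK1, A, hA3, hA⟩ := numer4 n (θ := θ2 / 2) (by linarith) (by linarith) ⌈C2⌉₊
  have hKC : C2 ≤ ⌈C2⌉₊ := Nat.le_ceil _
  obtain ⟨B, hB⟩ : ∃ B : ℕ, B = A + ⌈2 * (1 + 4 * ((n : ℝ) + 3) ^ 2) / θ2⌉₊ +
    ⌈2 * (((n : ℝ) + 3) ^ 3 + 3) / θ2⌉₊ + ⌈(2 * C2 / θ2) ^ 4⌉₊ +
    ⌈2 * ((n : ℝ) + 5) / θ2⌉₊ + 2 := ⟨_, rfl⟩
  refine ⟨K1 + (B : ℝ) ^ 2, by positivity, ?_⟩
  intro a b lam hab hsum hgap hlast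
  by_cases hquad : (a - 1) ^ 2 ≤ b
  · exact foulkes_quadratic hquad lam
  rw [not_le] at hquad
  have ha : 2 ≤ a := by
    by_contra h
    have h0 : a - 1 = 0 := by omega
    rw [h0] at hquad
    simp at hquad
  have ha2 : (2 : ℝ) ≤ a := by exact_mod_cast ha
  have ha0 : (0 : ℝ) < a := by linarith
  have hlog0 : 0 < Real.log a := Real.log_pos (by linarith)
  have hloga : Real.log a ≤ a := (Real.log_le_sub_one_of_pos ha0).trans (by linarith)
  have hone : 1 ≤ (a : ℝ) / Real.log a := (one_le_div hlog0).2 hloga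
  have hab2 : (a : ℝ) + K1 * a / Real.log a + (B : ℝ) ^ 2 ≤ b := by
    have e : (K1 + (B : ℝ) ^ 2) * a / Real.log a =
        K1 * a / Real.log a + (B : ℝ) ^ 2 * (a / Real.log a) := by ring
    have e2 : (B : ℝ) ^ 2 * 1 ≤ (B : ℝ) ^ 2 * (a / Real.log a) :=
      mul_le_mul_of_nonneg_left hone (by positivity)
    rw [e] at hab
    linarith
  have hKn : 0 ≤ K1 * a / Real.log a := by positivity
  have hBa : B ≤ a := by
    by_contra h
    rw [not_le] at h
    have h1 : (a - 1) ^ 2 ≤ B ^ 2 := Nat.pow_le_pow_left (by omega) 2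
    have h2 : (((a - 1) ^ 2 : ℕ) : ℝ) ≤ (B : ℝ) ^ 2 := by exact_mod_cast h1
    have h3 : (b : ℝ) < (((a - 1) ^ 2 : ℕ) : ℝ) := by exact_mod_cast hquad
    linarith
  have hab1 : (a : ℝ) ≤ b := by
    have : (0 : ℝ) ≤ (B : ℝ) ^ 2 := by positivity
    linarith
  have hb0 : (0 : ℝ) < b := by linarith
  have hn0 : (0 : ℝ) ≤ n := Nat.cast_nonneg _
  have ceil_le : ∀ (X : ℝ), ⌈X⌉₊ ≤ B → X ≤ a := fun X hX =>
    (Nat.le_ceil X).trans (by exact_mod_cast hX.trans hBa)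
  have c1 := ceil_le (2 * (1 + 4 * ((n : ℝ) + 3) ^ 2) / θ2) (by omega)
  have c2 := ceil_le (2 * (((n : ℝ) + 3) ^ 3 + 3) / θ2) (by omega)
  have c3 := ceil_le ((2 * C2 / θ2) ^ 4) (by omega)
  have c4 := ceil_le (2 * ((n : ℝ) + 5) / θ2) (by omega)
  rw [div_le_iff₀ h20] at c1 c2 c4
  have hp := H849.pow_small hC2 h20 c3
  have hP0 : 0 ≤ (a : ℝ) ^ ((3 : ℝ) / 2 + 1 / 4) := by positivity
  have hab0 : 0 ≤ (a : ℝ) * b := by positivity
  have hθab : θ2 * (a * b) ≤ θ * (a * b) := mul_le_mul_of_nonneg_right h2θ hab0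
  have hgap0 : ((lam 1 : ℕ) : ℝ) + θ * (a * b) ≤ lam 0 := by
    have h0 := hgap 0
    have e0 : (0 : Fin (n + 2)).castSucc = (0 : Fin (n + 3)) := rfl
    have e1 : (0 : Fin (n + 2)).succ = (1 : Fin (n + 3)) := rfl
    rw [e0, e1] at h0
    exact h0
  by_cases hKb : ⌈C2⌉₊ * a < b
  · have hpb : C2 * (a : ℝ) ^ ((3 : ℝ) / 2 + 1 / 4) ≤ θ2 / 2 * (a * b) := by
      refine hp.trans ?_
      exact mul_le_mul_of_nonneg_left (mul_le_mul_of_nonneg_left hab1 ha0.le) (by linarith)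
    have h5 : ((n : ℝ) + 5) * b ≤ θ2 / 2 * (a * b) := by
      have h6 : ((n : ℝ) + 5) * b ≤ (a * θ2 / 2) * b :=
        mul_le_mul_of_nonneg_right (by linarith) hb0.le
      linarith
    have h7 : 0 ≤ θ2 / 2 * (a * b) := by positivity
    apply hF a b lam hsum
    · have : ((⌈C2⌉₊ * a : ℕ) : ℝ) ≤ b := by exact_mod_cast hKb.le
      push_cast at this
      nlinarith
    · linarith
    · intro i
      have := hgap i.succ
      linarith
    · linarith
  rw [not_lt] at hKb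
  obtain ⟨c, h, s, hc1, hc2, hc3, hc4, hc5⟩ := hA a b (by omega)
    (by have : (0 : ℝ) ≤ (B : ℝ) ^ 2 := by positivity
        linarith) hKb
  have hcb : ((c * b : ℕ) : ℝ) ≤ θ2 / 2 * (a * b) := by
    push_cast
    have := mul_le_mul_of_nonneg_right hc1 hb0.le
    linarith
  have hfac : 0 < a.factorial := Nat.factorial_pos _
  have hXL : a.factorial ≤ ((b + 1) ^ (n + 2) + a) ^ a :=
    (Nat.factorial_le_pow a).trans (Nat.pow_le_pow_left (Nat.le_add_left _ _) _)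
  refine tcore (((b + 1) ^ (n + 2) + a) ^ a / a.factorial) ?_ (Nat.div_pos hXL hfac) ?_ hc2 lam
    hsum ?_ ?_ ?_
  · intro mu
    rw [Nat.le_div_iff_mul_le hfac, mul_comm]
    exact plethMult_le_fac a b (n + 2) mu
  · exact (hc5 _ (Nat.mul_div_le _ _)).trans (tdim hc3 hc4)
  · have : ((lam 1 + c * b + b + 4 * (n + 3) ^ 2 * a : ℕ) : ℝ) ≤ lam 0 := by
      push_cast
      push_cast at hcb
      have e4 : 4 * ((n : ℝ) + 3) ^ 2 * a ≤ 4 * ((n : ℝ) + 3) ^ 2 * b :=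
        mul_le_mul_of_nonneg_left hab1 (by positivity)
      have e5 : (2 * (1 + 4 * ((n : ℝ) + 3) ^ 2)) * b ≤ (a * θ2) * b :=
        mul_le_mul_of_nonneg_right c1 hb0.le
      linarith
    exact_mod_cast this
  · intro i
    have : ((lam i.succ.succ + c * b + (n + 3) ^ 3 + 3 : ℕ) : ℝ) ≤ lam i.succ.castSucc := by
      push_cast
      push_cast at hcb
      have e8 := hgap i.succ
      have e9 : (2 * (((n : ℝ) + 3) ^ 3 + 3)) * 1 ≤ (a * θ2) * b :=
        mul_le_mul c2 (by linarith) (by norm_num) (by positivity)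
      linarith
    exact_mod_cast this
  · have : ((c * b : ℕ) : ℝ) ≤ lam (Fin.last _) := by
      have h7 : 0 ≤ θ2 / 2 * (a * b) := by positivity
      linarith
    exact_mod_cast this

/-- **Almost all partitions with at most `n + 3` rows, for `b ≥ a + K a / log a`.** -/
theorem almost_all_log (n : ℕ) {ε : ℝ} (hε : 0 < ε) :
    ∃ K : ℝ, 0 < K ∧ ∀ a b : ℕ, 1 ≤ a → (a : ℝ) + K * a / Real.log a ≤ b →
      ({lam ∈ (Parts (n + 3) (a * b) : Set (Fin (n + 3) → Fin (a * b + 1))) |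
        ¬ plethMult a b (n + 3) (fun i => lam i) ≤
          plethMult b a (n + 3) (fun i => lam i)}.ncard : ℝ) ≤
        ε * (Parts (n + 3) (a * b)).card := by
  obtain ⟨K0, h6⟩ := count_gap n
  obtain ⟨θ, hθ⟩ : ∃ θ : ℝ, θ = ε / (2 * (K0 + 1)) := ⟨_, rfl⟩
  have hθ0 : 0 < θ := by rw [hθ]; positivity
  obtain ⟨K, hK, h5⟩ := final_log n hθ0
  refine ⟨K + 1 / θ, by positivity, fun a b ha hb => ?_⟩
  obtain ⟨N, hN⟩ : ∃ N : ℕ, N = (Parts (n + 3) (a * b)).card := ⟨_, rfl⟩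
  rw [← hN]
  by_cases hquad : (a - 1) ^ 2 ≤ b
  · have he : {lam ∈ (Parts (n + 3) (a * b) : Set (Fin (n + 3) → Fin (a * b + 1))) |
        ¬ plethMult a b (n + 3) (fun i => lam i) ≤
          plethMult b a (n + 3) (fun i => lam i)} = ∅ := by
      ext lam
      simp only [Set.mem_ofPred_eq, Set.mem_empty_iff_false, iff_false, not_and, not_not]
      intro _
      exact foulkes_quadratic hquad _
    rw [he, Set.ncard_empty, Nat.cast_zero]
    positivity
  rw [not_le] at hquad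
  have ha2' : 2 ≤ a := by
    by_contra h
    have h0 : a - 1 = 0 := by omega
    rw [h0] at hquad
    simp at hquad
  have ha2 : (2 : ℝ) ≤ a := by exact_mod_cast ha2'
  have ha0 : (0 : ℝ) < a := by linarith
  have hlog0 : 0 < Real.log a := Real.log_pos (by linarith)
  have hloga : Real.log a ≤ a := (Real.log_le_sub_one_of_pos ha0).trans (by linarith)
  have hone : 1 ≤ (a : ℝ) / Real.log a := (one_le_div hlog0).2 hloga
  have hab2 : (a : ℝ) + K * a / Real.log a + 1 / θ ≤ b := by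
    have e : (K + 1 / θ) * a / Real.log a =
        K * a / Real.log a + 1 / θ * (a / Real.log a) := by ring
    have e2 : 1 / θ * 1 ≤ 1 / θ * (a / Real.log a) :=
      mul_le_mul_of_nonneg_left hone (by positivity)
    rw [e] at hb
    linarith
  have hKn : 0 ≤ K * a / Real.log a := by positivity
  have hti : 0 < 1 / θ := by positivity
  have hab : (a : ℝ) + K * a / Real.log a ≤ b := by linarith
  have hbθ : 1 / θ ≤ b := by linarith
  have hb0 : (0 : ℝ) < b := by linarith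
  have hX1 : 1 ≤ θ * (a * b) := by
    rw [div_le_iff₀ hθ0] at hbθ
    nlinarith
  have hX0 : 0 ≤ θ * (a * b) := by linarith
  obtain ⟨G, hG⟩ : ∃ G : ℕ, G = ⌈θ * ((a : ℝ) * b)⌉₊ := ⟨_, rfl⟩
  have hXG : θ * (a * b) ≤ G := by rw [hG]; exact Nat.le_ceil _
  have hGX : (G : ℝ) ≤ θ * (a * b) + 1 := by rw [hG]; exact (Nat.ceil_lt_add_one hX0).le
  have hG1 : 1 ≤ G := by
    rw [hG]
    exact Nat.one_le_ceil_iff.2 (by linarith)
  have h7' := h6 (a * b) G hG1
  rw [← hN] at h7'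
  obtain ⟨F, hF⟩ : ∃ F : Finset (Fin (n + 3) → Fin (a * b + 1)),
      F = (Parts (n + 3) (a * b)).filter (fun lam =>
      (∃ i : Fin (n + 2), (lam i.castSucc : ℕ) < lam i.succ + G) ∨
        (lam (Fin.last _) : ℕ) < G) := ⟨_, rfl⟩
  rw [← hF] at h7'
  have hsub : {lam ∈ (Parts (n + 3) (a * b) : Set (Fin (n + 3) → Fin (a * b + 1))) |
        ¬ plethMult a b (n + 3) (fun i => lam i) ≤
          plethMult b a (n + 3) (fun i => lam i)} ⊆ (F : Set (Fin (n + 3) → Fin (a * b + 1))) := by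
    rintro lam ⟨hlam, hbad⟩
    rw [hF, Finset.coe_filter]
    refine ⟨hlam, ?_⟩
    by_contra hcon
    rw [not_or, not_exists] at hcon
    obtain ⟨hgap, hlast⟩ := hcon
    have hgapR : ∀ i : Fin (n + 2), ((lam i.succ : ℕ) : ℝ) + G ≤ ((lam i.castSucc : ℕ) : ℝ) :=
      fun i => by exact_mod_cast not_lt.1 (hgap i)
    have hmem : lam ∈ Parts (n + 3) (a * b) := hlam
    unfold Parts at hmem
    rw [Finset.mem_filter] at hmem
    refine hbad (h5 a b (fun i => (lam i : ℕ)) hab hmem.2.2 ?_ ?_)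
    · intro i
      have h0 := hgapR i
      linarith
    · have : (G : ℝ) ≤ ((lam (Fin.last _) : ℕ) : ℝ) := by exact_mod_cast not_lt.1 hlast
      linarith
  have hcard : ({lam ∈ (Parts (n + 3) (a * b) : Set (Fin (n + 3) → Fin (a * b + 1))) |
        ¬ plethMult a b (n + 3) (fun i => lam i) ≤
          plethMult b a (n + 3) (fun i => lam i)}.ncard : ℝ) ≤ F.card := by
    have h1 := Set.ncard_le_ncard hsub (Finset.finite_toSet F)
    rw [Set.ncard_coe_finset] at h1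
    exact_mod_cast h1
  refine hcard.trans ?_
  have h7 : (a : ℝ) * b * F.card ≤ K0 * G * N := by exact_mod_cast h7'
  have hab0 : 0 < (a : ℝ) * b := by positivity
  have hN0 : (0 : ℝ) ≤ N := Nat.cast_nonneg _
  have hK0 : (0 : ℝ) ≤ K0 := Nat.cast_nonneg _
  have hKθ : K0 * (2 * θ) ≤ ε := by
    rw [hθ]
    have e : (K0 : ℝ) * (2 * (ε / (2 * (K0 + 1)))) = ε * (K0 / (K0 + 1)) := by
      field_simp
    rw [e]
    have : (K0 : ℝ) / (K0 + 1) ≤ 1 := by
      rw [div_le_one (by positivity)]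
      linarith
    nlinarith
  have h12 : (a : ℝ) * b * F.card ≤ a * b * (ε * N) := by
    calc (a : ℝ) * b * F.card ≤ K0 * G * N := h7
      _ ≤ K0 * (2 * (θ * (a * b))) * N := by
        refine mul_le_mul_of_nonneg_right ?_ hN0
        exact mul_le_mul_of_nonneg_left (by linarith) hK0
      _ = a * b * (K0 * (2 * θ) * N) := by ring
      _ ≤ a * b * (ε * N) := by
        refine mul_le_mul_of_nonneg_left ?_ hab0.le
        exact mul_le_mul_of_nonneg_right hKθ hN0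
  exact le_of_mul_le_mul_left h12 hab0

end Vale.Agent.P181.FR
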